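import Mathlib

/-!
# Positivity near a compact zero set
-/

open Set Filter Topology

namespace Vale.Agent.P088.R2.H312.T

/-- A function which is positive on the zero set of `w ≥ 0` in a compact set is bounded below by a
positive constant where `w` is small. -/
theorem pos_near {X : Type*} [TopologicalSpace X] {K : Set X} (hK : IsCompact K) {w F : X → ℝ}
    (hw : ContinuousOn w K) (hF : ∀ x ∈ K, w x ≤ 0 → ContinuousWithinAt F K x ∧ 0 < F x) :
    ∃ ρ > 0, ∃ m > 0, ∀ x ∈ K, w x ≤ ρ → m ≤ F x := by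
  have key : ∃ ρ > (0 : ℝ), ∃ m > (0 : ℝ), ∀ x ∈ K, x ∈ K → w x ≤ ρ → m ≤ F x := by
    refine hK.induction_on (p := fun s => ∃ ρ > (0 : ℝ), ∃ m > (0 : ℝ), ∀ x ∈ s, x ∈ K →
      w x ≤ ρ → m ≤ F x) ?_ ?_ ?_ ?_
    · exact ⟨1, one_pos, 1, one_pos, by simp⟩
    · rintro s t hst ⟨ρ, hρ, m, hm, h⟩
      exact ⟨ρ, hρ, m, hm, fun x hx => h x (hst hx)⟩
    · rintro s t ⟨ρ, hρ, m, hm, h⟩ ⟨ρ', hρ', m', hm', h'⟩
      refine ⟨min ρ ρ', lt_min hρ hρ', min m m', lt_min hm hm', fun x hx hxK hwx => ?_⟩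
      rcases hx with hx | hx
      · exact (min_le_left _ _).trans (h x hx hxK (hwx.trans (min_le_left _ _)))
      · exact (min_le_right _ _).trans (h' x hx hxK (hwx.trans (min_le_right _ _)))
    · intro x hx
      rcases le_or_gt (w x) 0 with h0 | h0
      · obtain ⟨hc, hp⟩ := hF x hx h0
        have h1 : ∀ᶠ y in 𝓝[K] x, F x / 2 < F y := hc.eventually (lt_mem_nhds (by linarith))
        exact ⟨{y | F x / 2 < F y}, h1, 1, one_pos, F x / 2, by linarith,
          fun y hy _ _ => (le_of_lt hy)⟩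
      · have h1 : ∀ᶠ y in 𝓝[K] x, w x / 2 < w y :=
          (hw x hx).eventually (lt_mem_nhds (by linarith))
        exact ⟨{y | w x / 2 < w y}, h1, w x / 2, by linarith, 1, one_pos,
          fun y hy _ h => absurd h (not_le.2 hy)⟩
  obtain ⟨ρ, hρ, m, hm, h⟩ := key
  exact ⟨ρ, hρ, m, hm, fun x hx => h x hx hx⟩

end Vale.Agent.P088.R2.H312.T
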