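import Vale.Agent.P088.R2.H312.T.Cpt

/-!
# Matrices `a e eᵀ + b` and the model at a critical surface
-/

open Set Filter Topology Finset

set_option linter.unusedSectionVars false

noncomputable section

namespace Vale.Agent.P088.R2.H312.T

variable {ι : Type*} [Fintype ι] [DecidableEq ι]

/-- `a e eᵀ + b`. -/
def R1 (a b : ℝ) (e : ι → ℝ) (i l : ι) : ℝ := a * (e i * e l) + b * (if i = l then 1 else 0)

section alg

variable {a b a' b' : ℝ} {e v : ι → ℝ}

lemma R1_mul (he : ∑ i, e i ^ 2 = 1) (i l : ι) :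
    ∑ j, R1 a b e i j * R1 a' b' e j l = R1 (a * a' + a * b' + b * a') (b * b') e i l := by
  have h : ∀ j, R1 a b e i j * R1 a' b' e j l = a * a' * (e i * e l) * e j ^ 2 +
      (a * b' * (e i * e j) * (if j = l then 1 else 0) +
      (b * a' * (e j * e l) * (if i = j then 1 else 0) +
      b * b' * ((if i = j then 1 else 0) * (if j = l then 1 else 0)))) := by
    intro j; unfold R1; ring
  rw [Finset.sum_congr rfl fun j _ => h j]
  rw [Finset.sum_add_distrib, Finset.sum_add_distrib, Finset.sum_add_distrib,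
    ← Finset.mul_sum, he]
  have h2 : ∑ j, a * b' * (e i * e j) * (if j = l then (1 : ℝ) else 0) = a * b' * (e i * e l) := by
    simp
  have h3 : ∑ j, b * a' * (e j * e l) * (if i = j then (1 : ℝ) else 0) = b * a' * (e i * e l) := by
    simp
  have h4 : ∑ j, b * b' * ((if i = j then (1 : ℝ) else 0) * (if j = l then 1 else 0)) =
      b * b' * (if i = l then 1 else 0) := by
    simp
  rw [h2, h3, h4]
  unfold R1
  ring

lemma R1_symm (i l : ι) : R1 a b e i l = R1 a b e l i := by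
  unfold R1
  rw [mul_comm (e i) (e l)]
  congr 2
  simp only [eq_comm]

lemma R1_form (v : ι → ℝ) : ∑ i, ∑ l, R1 a b e i l * v i * v l =
    a * (∑ i, e i * v i) ^ 2 + b * ∑ i, v i ^ 2 := by
  have h : ∀ i l, R1 a b e i l * v i * v l = a * ((e i * v i) * (e l * v l)) +
      b * (v i * v l) * (if i = l then 1 else 0) := by
    intro i l; unfold R1; ring
  simp only [h, Finset.sum_add_distrib]
  congr 1
  · rw [sq, Finset.sum_mul_sum, Finset.mul_sum]
    refine Finset.sum_congr rfl fun i _ => ?_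
    rw [Finset.mul_sum]
  · rw [Finset.mul_sum]
    refine Finset.sum_congr rfl fun i _ => ?_
    simp [sq]

lemma R1_frob (he : ∑ i, e i ^ 2 = 1) : ∑ i, ∑ l, R1 a b e i l * R1 a' b' e i l =
    a * a' + a * b' + b * a' + b * b' * Fintype.card ι := by
  have h : ∀ i, ∑ l, R1 a b e i l * R1 a' b' e i l =
      R1 (a * a' + a * b' + b * a') (b * b') e i i := by
    intro i
    rw [← R1_mul he]
    refine Finset.sum_congr rfl fun l _ => ?_
    rw [R1_symm (a := a') i l]
  simp only [h]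
  unfold R1
  simp only [if_true, mul_one, Finset.sum_add_distrib, Finset.sum_const, Finset.card_univ,
    nsmul_eq_mul, ← Finset.mul_sum, ← sq, he]
  ring

lemma R1_trace (he : ∑ i, e i ^ 2 = 1) : ∑ i, R1 a b e i i = a + b * Fintype.card ι := by
  unfold R1
  simp only [if_true, mul_one, Finset.sum_add_distrib, Finset.sum_const, Finset.card_univ,
    nsmul_eq_mul, ← Finset.mul_sum, ← sq, he]
  ring

end alg

/-! ## The reduced quantities (the same sums as in the tube theorem) -/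

/-- `|y|²`. -/
def L2 (y : ι → ℝ) : ℝ := ∑ k, y k * y k

/-- `γ = 2 κ + σ |W_y|²`. -/
def gam (kap sig : ℝ) (y : ι → ℝ) : ℝ := kap + kap + sig * L2 y

/-- `H - (2 / γ) M Mᵀ`. -/
def gg (H M : ι → ι → ℝ) (g : ℝ) (i l : ι) : ℝ := H i l - 2 * (g⁻¹ * ∑ j, M i j * M l j)

/-- `Mᵀ H M`. -/
def N3 (H M : ι → ι → ℝ) (j k : ι) : ℝ := ∑ i, ∑ l, M i j * M l k * H i l

/-- `tr (Mᵀ H M)`. -/
def tN (H M : ι → ι → ℝ) : ℝ := ∑ j, N3 H M j j

/-- `tr (g H)`. -/
def tgH (H M : ι → ι → ℝ) (g : ℝ) : ℝ := ∑ i, ∑ l, gg H M g i l * H i l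

/-- `|H|²`. -/
def HH (H : ι → ι → ℝ) : ℝ := ∑ i, ∑ l, H i l * H i l

/-- The choice of `lam` for which the trace condition is an equality. -/
def lam (H M : ι → ι → ℝ) (g θ c : ℝ) : ℝ :=
  tN H M - 1 / 4 * g * (c + HH H - 2 * (1 - θ) * tgH H M g)

section surf

variable {e : ι → ℝ} {A B k g θ c : ℝ}

lemma gg_surf (he : ∑ i, e i ^ 2 = 1) (i l : ι) :
    gg (R1 (A - k) k e) (R1 (B + k) (-k) e) g i l =
      R1 (A - k - 2 * (g⁻¹ * (B ^ 2 - k ^ 2))) (k - 2 * (g⁻¹ * k ^ 2)) e i l := by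
  unfold gg
  have h : ∑ j, R1 (B + k) (-k) e i j * R1 (B + k) (-k) e l j = R1 (B ^ 2 - k ^ 2) (k ^ 2) e i l := by
    rw [Finset.sum_congr rfl fun j _ => by rw [R1_symm l j], R1_mul he]
    congr 1 <;> ring
  rw [h]
  unfold R1
  ring

lemma N3_surf (he : ∑ i, e i ^ 2 = 1) (i l : ι) :
    N3 (R1 (A - k) k e) (R1 (B + k) (-k) e) i l = R1 (A * B ^ 2 - k ^ 3) (k ^ 3) e i l := by
  unfold N3
  have h : ∀ m, ∑ p, R1 (B + k) (-k) e m i * R1 (B + k) (-k) e p l * R1 (A - k) k e m p =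
      R1 (B + k) (-k) e i m * R1 (A * B - (-k ^ 2)) (-k ^ 2) e m l := by
    intro m
    have h1 : ∀ p, R1 (B + k) (-k) e m i * R1 (B + k) (-k) e p l * R1 (A - k) k e m p =
        R1 (B + k) (-k) e i m * (R1 (A - k) k e m p * R1 (B + k) (-k) e p l) := by
      intro p; rw [R1_symm m i]; ring
    rw [Finset.sum_congr rfl fun p _ => h1 p, ← Finset.mul_sum, R1_mul he]
    congr 2 <;> ring
  rw [Finset.sum_congr rfl fun m _ => h m, R1_mul he]
  congr 1 <;> ring

lemma lam_surf (he : ∑ i, e i ^ 2 = 1) (hg : g ≠ 0) :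
    lam (R1 (A - k) k e) (R1 (B + k) (-k) e) g 0 0 =
      1 / 4 * g * (A ^ 2 + (Fintype.card ι - 1) * k ^ 2) := by
  unfold lam tN tgH HH
  simp only [gg_surf he, N3_surf he, R1_trace he, R1_frob he]
  field_simp
  ring

end surf

end Vale.Agent.P088.R2.H312.T
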