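import Vale.Agent.P088.R2.H312.T.Surf

/-!
# The four hypotheses near a critical surface
-/

open Set Filter Topology Finset

set_option linter.unusedSectionVars false

noncomputable section

namespace Vale.Agent.P088.R2.H312.T

variable {ι : Type*} [Fintype ι] [DecidableEq ι] {f : ℝ} {x : X ι}

lemma gg_cont {n : ℝ} (hS : Sc n f x.1.1 x.1.2.1 x.1.2.2.1 x.1.2.2.2) (h0 : xg f x ≠ 0) (i l : ι) :
    ContinuousAt (fun x : X ι => gg (xH f x) (xM f x) (xg f x) i l) x := by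
  have h1 := xg_cont (x := x) hS
  unfold gg
  refine ContinuousAt.sub ?_ (continuousAt_const.mul ((h1.inv₀ h0).mul ?_))
  · unfold xH R1 Aq; fun_prop
  · unfold xM R1 Bq; fun_prop

lemma F1_cont {n : ℝ} (hS : Sc n f x.1.1 x.1.2.1 x.1.2.2.1 x.1.2.2.2) (h0 : xg f x ≠ 0) :
    ContinuousAt (F1 f : X ι → ℝ) x := by
  unfold F1
  refine ContinuousAt.sub ?_ (by unfold xc; fun_prop)
  refine tendsto_finsetSum _ fun i _ => tendsto_finsetSum _ fun l _ => ?_
  exact ((gg_cont hS h0 i l).mul (by fun_prop)).mul (by fun_prop)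

lemma F2_cont {n : ℝ} (hS : Sc n f x.1.1 x.1.2.1 x.1.2.2.1 x.1.2.2.2) (h0 : xg f x ≠ 0) :
    ContinuousAt (F2 f : X ι → ℝ) x := by
  have hg := xg_cont (x := x) hS
  have hH : ∀ i l, ContinuousAt (fun x : X ι => xH f x i l) x := by
    intro i l; unfold xH R1 Aq; fun_prop
  have hM : ∀ i l, ContinuousAt (fun x : X ι => xM f x i l) x := by
    intro i l; unfold xM R1 Bq; fun_prop
  have hN : ∀ i l, ContinuousAt (fun x : X ι => N3 (xH f x) (xM f x) i l) x := by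
    intro i l
    unfold N3
    exact tendsto_finsetSum _ fun a _ => tendsto_finsetSum _ fun b _ =>
      ((hM _ _).mul (hM _ _)).mul (hH _ _)
  unfold F2 lam tN HH tgH
  refine ContinuousAt.sub (ContinuousAt.sub ?_ ((continuousAt_const.mul hg).mul
    (ContinuousAt.sub (ContinuousAt.add (by unfold xc; fun_prop) ?_) (ContinuousAt.mul
      (by unfold xθ; fun_prop) ?_)))) ?_
  · exact tendsto_finsetSum _ fun j _ => hN j j
  · exact tendsto_finsetSum _ fun a _ => tendsto_finsetSum _ fun b _ => (hH _ _).mul (hH _ _)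
  · exact tendsto_finsetSum _ fun a _ => tendsto_finsetSum _ fun b _ =>
      (gg_cont hS h0 a b).mul (hH _ _)
  · exact tendsto_finsetSum _ fun a _ => tendsto_finsetSum _ fun b _ =>
      ((hN _ _).mul (by fun_prop)).mul (by fun_prop)

lemma F3_cont {n δ : ℝ} (hS : Sc n f x.1.1 x.1.2.1 x.1.2.2.1 x.1.2.2.2) :
    ContinuousAt (F3 f δ : X ι → ℝ) x := by
  have h1 : 4 * x.1.2.2.1 ^ 2 ≠ 0 := by have := hS.s10; positivity
  have hs : ContinuousAt (fun x : X ι => sig (xK f x) x.1.1 x.1.2.1 x.1.2.2.1 x.1.2.2.2) x := by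
    unfold sig xK; fun_prop (disch := assumption)
  have hG : ∀ i l, ContinuousAt (fun x : X ι => xG f x i l) x := by
    intro i l; unfold xG R1 Cq; fun_prop
  unfold F3
  refine ContinuousAt.sub (ContinuousAt.sub (ContinuousAt.sub ?_ (by unfold kap; fun_prop))
    (hs.mul (by unfold xy; fun_prop))) (by unfold xc; fun_prop)
  exact tendsto_finsetSum _ fun a _ => tendsto_finsetSum _ fun b _ =>
      ((hG _ _).mul (by fun_prop)).mul (by fun_prop)

/-- The compact set of parameters. -/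
def KX (P : Set (ℝ × ℝ × ℝ × ℝ)) : Set (X ι) :=
  P ×ˢ {e | ∑ i, e i ^ 2 = 1} ×ˢ {v | ∑ i, v i ^ 2 = 1} ×ˢ Metric.closedBall (0 : Z ι) 1

lemma sphere_compact : IsCompact {e : ι → ℝ | ∑ i, e i ^ 2 = 1} := by
  refine Metric.isCompact_of_isClosed_isBounded (isClosed_eq (by fun_prop) continuous_const) ?_
  refine (Metric.isBounded_closedBall (x := (0 : ι → ℝ)) (r := 1)).subset ?_
  intro e he
  rw [mem_closedBall_zero_iff, pi_norm_le_iff_of_nonneg zero_le_one]
  intro i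
  rw [Real.norm_eq_abs]
  have h : e i ^ 2 ≤ 1 := by
    rw [← (show ∑ i, e i ^ 2 = 1 from he)]
    exact Finset.single_le_sum (f := fun i => e i ^ 2) (fun i _ => sq_nonneg _) (Finset.mem_univ i)
  exact abs_le_one_iff_mul_self_le_one.2 (by nlinarith)

lemma KX_compact {P : Set (ℝ × ℝ × ℝ × ℝ)} (hP : IsCompact P) : IsCompact (KX P : Set (X ι)) :=
  hP.prod (sphere_compact.prod (sphere_compact.prod (isCompact_closedBall _ _)))

section main

variable {P : Set (ℝ × ℝ × ℝ × ℝ)} (hP : IsCompact P)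
  (hS : ∀ q ∈ P, Sc (Fintype.card ι) f q.1 q.2.1 q.2.2.1 q.2.2.2)

include hP hS

theorem near12 : ∃ ρ > 0, ∃ m > 0, ∀ x ∈ (KX P : Set (X ι)), ‖x.2.2.2‖ ≤ ρ →
    m ≤ F1 f x ∧ m ≤ F2 f x := by
  have hw : ContinuousOn (fun x : X ι => ‖x.2.2.2‖) (KX P : Set (X ι)) := by fun_prop
  obtain ⟨ρ₁, h1, m₁, hm1, H1⟩ := pos_near (KX_compact hP) hw (F := F1 f) (by
    rintro x ⟨h1, h2, h3, h4⟩ h0
    have h0' : x.2.2.2 = 0 := norm_le_zero_iff.1 h0
    have hs := hS _ h1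
    have hg : xg f x ≠ 0 := by
      rw [xg_surf hs h2 h0']
      have a1 := hs.k0
      have a2 := hs.Ck
      exact (add_pos a1 (a1.trans a2)).ne'
    exact ⟨(F1_cont hs hg).continuousWithinAt, F1_pos hs h2 h3 h0'⟩)
  obtain ⟨ρ₂, h2, m₂, hm2, H2⟩ := pos_near (KX_compact hP) hw (F := F2 f) (by
    rintro x ⟨h1, h2, h3, h4⟩ h0
    have h0' : x.2.2.2 = 0 := norm_le_zero_iff.1 h0
    have hs := hS _ h1
    have hg : xg f x ≠ 0 := by
      rw [xg_surf hs h2 h0']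
      have a1 := hs.k0
      have a2 := hs.Ck
      exact (add_pos a1 (a1.trans a2)).ne'
    exact ⟨(F2_cont hs hg).continuousWithinAt, F2_pos hs h2 h3 h0'⟩)
  exact ⟨min ρ₁ ρ₂, lt_min h1 h2, min m₁ m₂, lt_min hm1 hm2, fun x hx h =>
    ⟨(min_le_left _ _).trans (H1 x hx (h.trans (min_le_left _ _))),
      (min_le_right _ _).trans (H2 x hx (h.trans (min_le_right _ _)))⟩⟩

theorem near3 {δ : ℝ} (hδ : 0 < δ) : ∃ ρ > 0, ∃ m > 0, ∀ x ∈ (KX P : Set (X ι)), ‖x.2.2.2‖ ≤ ρ →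
    m ≤ F3 f δ x := by
  have hw : ContinuousOn (fun x : X ι => ‖x.2.2.2‖) (KX P : Set (X ι)) := by fun_prop
  refine pos_near (KX_compact hP) hw (F := F3 f δ) ?_
  rintro x ⟨h1, h2, h3, h4⟩ h0
  have h0' : x.2.2.2 = 0 := norm_le_zero_iff.1 h0
  have hs := hS _ h1
  exact ⟨(F3_cont hs).continuousWithinAt, F3_pos hδ hs h3 h0'⟩

end main

end Vale.Agent.P088.R2.H312.T
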