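import Vale.Agent.P088.R2.H312.T.Near

/-!
# The pointwise hypotheses of the tube theorem, explicit data
-/

open Set Filter Topology Finset

set_option linter.unusedSectionVars false

noncomputable section

namespace Vale.Agent.P088.R2.H312.T

variable {ι : Type*} [Fintype ι] [DecidableEq ι] {f : ℝ}

lemma homog {m : ℝ} (Φ : (ι → ℝ) → ℝ) (h2 : ∀ a v, Φ (fun i => a * v i) = a ^ 2 * Φ v)
    (h : ∀ v, ∑ i, v i ^ 2 = 1 → m ≤ Φ v) (v : ι → ℝ) : m * ∑ i, v i ^ 2 ≤ Φ v := by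
  set n := ∑ i, v i ^ 2 with hn
  have hn0 : 0 ≤ n := Finset.sum_nonneg fun i _ => sq_nonneg _
  rcases eq_or_lt_of_le hn0 with h0 | h0
  · have hv : ∀ i, v i = 0 := by
      intro i
      have := (Finset.sum_eq_zero_iff_of_nonneg fun i _ => sq_nonneg (v i)).1 (h0.symm) i
        (Finset.mem_univ i)
      exact pow_eq_zero_iff two_ne_zero |>.1 this
    have e1 : v = fun i => (0 : ℝ) * v i := by funext i; simp [hv i]
    have e2 : Φ v = 0 := by rw [e1, h2]; ring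
    rw [← h0, e2]; simp
  · have hs : 0 < √n := Real.sqrt_pos.2 h0
    have h1 := h (fun i => (√n)⁻¹ * v i) (by
      simp only [mul_pow, ← Finset.mul_sum]
      rw [← hn, inv_pow, Real.sq_sqrt h0.le, inv_mul_cancel₀ h0.ne'])
    rw [h2, inv_pow, Real.sq_sqrt h0.le] at h1
    calc m * n ≤ n⁻¹ * Φ v * n := mul_le_mul_of_nonneg_right h1 h0.le
      _ = Φ v := by field_simp

/-- The conclusion for one set of data. -/
structure Hyp (H M G : ι → ι → ℝ) (y : ι → ℝ) (ka si θ c : ℝ) : Prop where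
  k0 : 0 < ka
  s0 : 0 < si
  g0 : 0 < gam ka si y
  L0 : 0 < L2 y
  hG : ∀ v : ι → ℝ, ka * ∑ i, v i ^ 2 + si * (∑ i, y i * v i) ^ 2 + c * ∑ i, v i ^ 2 ≤
    ∑ i, ∑ l, G i l * v i * v l
  hN : ∀ v : ι → ℝ, ∑ i, ∑ l, N3 H M i l * v i * v l ≤ lam H M (gam ka si y) θ c * ∑ i, v i ^ 2
  hg : ∀ v : ι → ℝ, c * ∑ i, v i ^ 2 ≤ ∑ i, ∑ l, gg H M (gam ka si y) i l * v i * v l
  ht : c ≤ 2 * (1 - θ) * tgH H M (gam ka si y) +
    4 * ((gam ka si y)⁻¹ * (tN H M - lam H M (gam ka si y) θ c)) - HH H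

lemma norm_Z {ρ : ℝ} (hρ : 0 ≤ ρ) {z : Z ι} (h1 : ∀ i l, |z.1 i l| ≤ ρ) (h2 : ∀ i l, |z.2.1 i l| ≤ ρ)
    (h3 : ∀ i l, |z.2.2.1 i l| ≤ ρ) (h4 : ∀ i, |z.2.2.2.1 i| ≤ ρ) (h5 : |z.2.2.2.2.1| ≤ ρ)
    (h6 : |z.2.2.2.2.2.1| ≤ ρ) (h7 : |z.2.2.2.2.2.2.1| ≤ ρ) (h8 : |z.2.2.2.2.2.2.2| ≤ ρ) :
    ‖z‖ ≤ ρ := by
  have hm : ∀ D : ι → ι → ℝ, (∀ i l, |D i l| ≤ ρ) → ‖D‖ ≤ ρ := fun D h =>
    (pi_norm_le_iff_of_nonneg hρ).2 fun i => (pi_norm_le_iff_of_nonneg hρ).2 fun l => by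
      rw [Real.norm_eq_abs]; exact h i l
  refine Prod.norm_def z ▸ max_le (hm _ h1) ?_
  refine Prod.norm_def z.2 ▸ max_le (hm _ h2) ?_
  refine Prod.norm_def z.2.2 ▸ max_le (hm _ h3) ?_
  refine Prod.norm_def z.2.2.2 ▸ max_le ((pi_norm_le_iff_of_nonneg hρ).2 fun i => by
    rw [Real.norm_eq_abs]; exact h4 i) ?_
  refine Prod.norm_def z.2.2.2.2 ▸ max_le (by rw [Real.norm_eq_abs]; exact h5) ?_
  refine Prod.norm_def z.2.2.2.2.2 ▸ max_le (by rw [Real.norm_eq_abs]; exact h6) ?_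
  refine Prod.norm_def z.2.2.2.2.2.2 ▸ max_le (by rw [Real.norm_eq_abs]; exact h7)
    (by rw [Real.norm_eq_abs]; exact h8)

theorem near4 {P : Set (ℝ × ℝ × ℝ × ℝ)} (hP : IsCompact P)
    (hS : ∀ q ∈ P, Sc (Fintype.card ι) f q.1 q.2.1 q.2.2.1 q.2.2.2) :
    ∃ ρ > 0, ∃ m > 0, ∀ x ∈ (KX P : Set (X ι)), ‖x.2.2.2‖ ≤ ρ →
    m ≤ sig (xK f x) x.1.1 x.1.2.1 x.1.2.2.1 x.1.2.2.2 ∧ m ≤ L2 (xy x) := by
  have hw : ContinuousOn (fun x : X ι => ‖x.2.2.2‖) (KX P : Set (X ι)) := by fun_prop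
  obtain ⟨ρ₁, h1, m₁, hm1, H1⟩ := pos_near (KX_compact hP) hw
    (F := fun x => sig (xK f x) x.1.1 x.1.2.1 x.1.2.2.1 x.1.2.2.2) (by
    rintro x ⟨h1, h2, h3, h4⟩ h0
    have h0' : x.2.2.2 = 0 := norm_le_zero_iff.1 h0
    have hs := hS _ h1
    have h1 : 4 * x.1.2.2.1 ^ 2 ≠ 0 := by have := hs.s10; positivity
    refine ⟨ContinuousAt.continuousWithinAt (by unfold sig xK; fun_prop (disch := assumption)), ?_⟩
    unfold sig xK
    rw [h0']
    have a1 := hs.s10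
    have a2 := hs.Ck
    unfold Cq at a2
    refine div_pos ?_ (by positivity)
    simp only [Prod.snd_zero, Prod.fst_zero]
    linarith)
  obtain ⟨ρ₂, h2, m₂, hm2, H2⟩ := pos_near (KX_compact hP) hw (F := fun x => L2 (xy x)) (by
    rintro x ⟨h1, h2, h3, h4⟩ h0
    have h0' : x.2.2.2 = 0 := norm_le_zero_iff.1 h0
    have hs := hS _ h1
    refine ⟨ContinuousAt.continuousWithinAt (by unfold L2 xy; fun_prop), ?_⟩
    have h5 : L2 (xy x) = 4 * x.1.2.2.1 ^ 2 := by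
      unfold L2 xy
      rw [h0']
      have : ∀ k, (2 * x.1.2.2.1 * x.2.1 k + (0 : Z ι).2.2.2.1 k) *
          (2 * x.1.2.2.1 * x.2.1 k + (0 : Z ι).2.2.2.1 k) = 4 * x.1.2.2.1 ^ 2 * x.2.1 k ^ 2 := by
        intro k
        simp only [Prod.snd_zero, Prod.fst_zero, Pi.zero_apply]
        ring
      rw [Finset.sum_congr rfl fun k _ => this k, ← Finset.mul_sum,
        show ∑ i, x.2.1 i ^ 2 = 1 from h2, mul_one]
    change 0 < L2 (xy x)
    rw [h5]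
    have a1 := hs.s10
    positivity)
  exact ⟨min ρ₁ ρ₂, lt_min h1 h2, min m₁ m₂, lt_min hm1 hm2, fun x hx h =>
    ⟨(min_le_left _ _).trans (H1 x hx (h.trans (min_le_left _ _))),
      (min_le_right _ _).trans (H2 x hx (h.trans (min_le_right _ _)))⟩⟩

/-- **The pointwise hypotheses near a critical surface of minimum type.** `q = (k, s, s1, s2) =
(S'/r, S, S', S'')`, `e` the unit normal, everything in units of `E`. -/
theorem tube_pt {P : Set (ℝ × ℝ × ℝ × ℝ)} (hP : IsCompact P)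
    (hS : ∀ q ∈ P, Sc (Fintype.card ι) f q.1 q.2.1 q.2.2.1 q.2.2.2) :
    ∃ ρ δ θ c : ℝ, 0 < ρ ∧ 0 < δ ∧ δ < 1 ∧ 0 < θ ∧ θ < 1 ∧ 0 < c ∧ ∀ q ∈ P, ∀ e : ι → ℝ,
      ∑ i, e i ^ 2 = 1 → ∀ (H M G : ι → ι → ℝ) (y : ι → ℝ) (K : ℝ),
      (∀ i l, |H i l - R1 (Aq f q.2.1 q.2.2.1 q.2.2.2 - q.1) q.1 e i l| ≤ ρ) →
      (∀ i l, |M i l - R1 (Bq f q.2.1 q.2.2.2 q.2.2.1 + q.1) (-q.1) e i l| ≤ ρ) →
      (∀ i l, |G i l - R1 (Cq f q.2.1 q.2.2.1 q.2.2.2 - q.1) q.1 e i l| ≤ ρ) →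
      (∀ i, |y i - 2 * q.2.2.1 * e i| ≤ ρ) → |K - f * (q.2.2.1 - q.2.1)| ≤ ρ →
      Hyp H M G y (kap δ q.1) (sig K q.1 q.2.1 q.2.2.1 q.2.2.2) θ c := by
  obtain ⟨ρ₁, h1, m₁, hm1, H12⟩ := near12 (ι := ι) hP hS
  set δ := min ρ₁ (1 / 2) with hδ
  have δ0 : 0 < δ := lt_min h1 (by norm_num)
  obtain ⟨ρ₃, h3, m₃, hm3, H3⟩ := near3 (ι := ι) hP hS δ0
  obtain ⟨ρ₄, h4, m₄, hm4, H4⟩ := near4 (ι := ι) hP hS
  set ρ := min (min ρ₁ ρ₃) (min ρ₄ 1) with hρ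
  have ρ0 : 0 < ρ := lt_min (lt_min h1 h3) (lt_min h4 one_pos)
  have r1 : ρ ≤ ρ₁ := (min_le_left _ _).trans (min_le_left _ _)
  have r3 : ρ ≤ ρ₃ := (min_le_left _ _).trans (min_le_right _ _)
  have r4 : ρ ≤ ρ₄ := (min_le_right _ _).trans (min_le_left _ _)
  have r5 : ρ ≤ 1 := (min_le_right _ _).trans (min_le_right _ _)
  have d1 : δ ≤ 1 / 2 := min_le_right _ _
  refine ⟨ρ, δ, min ρ (1 / 2), ρ, ρ0, δ0, by linarith, lt_min ρ0 (by norm_num),
    (min_le_right _ _).trans_lt (by norm_num), ρ0, ?_⟩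
  intro q hq e he H M G y K hH hM hG hy hK
  set θ := min ρ (1 / 2) with hθ
  have θ0 : 0 < θ := lt_min ρ0 (by norm_num)
  have θ1 : θ ≤ ρ := min_le_left _ _
  have hs := hS q hq
  -- the point
  let z : ℝ → Z ι := fun d => (fun i l => H i l - R1 (Aq f q.2.1 q.2.2.1 q.2.2.2 - q.1) q.1 e i l,
    fun i l => M i l - R1 (Bq f q.2.1 q.2.2.2 q.2.2.1 + q.1) (-q.1) e i l,
    fun i l => G i l - R1 (Cq f q.2.1 q.2.2.1 q.2.2.2 - q.1) q.1 e i l,
    fun i => y i - 2 * q.2.2.1 * e i, K - f * (q.2.2.1 - q.2.1), θ, ρ, d)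
  have hz : ∀ d, |d| ≤ ρ → ‖z d‖ ≤ ρ := fun d hd =>
    norm_Z ρ0.le hH hM hG hy hK (by change |θ| ≤ ρ; rw [abs_of_pos θ0]; exact θ1)
      (by change |ρ| ≤ ρ; rw [abs_of_pos ρ0]) hd
  have hz1 : ‖z δ‖ ≤ ρ₁ := by
    refine norm_Z h1.le (fun i l => (hH i l).trans r1) (fun i l => (hM i l).trans r1)
      (fun i l => (hG i l).trans r1) (fun i => (hy i).trans r1) (hK.trans r1)
      (by change |θ| ≤ ρ₁; rw [abs_of_pos θ0]; exact θ1.trans r1)
      (by change |ρ| ≤ ρ₁; rw [abs_of_pos ρ0]; exact r1) ?_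
    change |δ| ≤ ρ₁
    rw [abs_of_pos δ0]
    exact min_le_left _ _
  have hz1' : ‖z δ‖ ≤ 1 := by
    refine norm_Z zero_le_one (fun i l => (hH i l).trans r5) (fun i l => (hM i l).trans r5)
      (fun i l => (hG i l).trans r5) (fun i => (hy i).trans r5) (hK.trans r5)
      (by change |θ| ≤ 1; rw [abs_of_pos θ0]; exact θ1.trans r5)
      (by change |ρ| ≤ 1; rw [abs_of_pos ρ0]; exact r5) ?_
    change |δ| ≤ 1
    rw [abs_of_pos δ0]
    linarith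
  let x : ℝ → (ι → ℝ) → X ι := fun d v => (q, e, v, z d)
  have mem : ∀ d v, ‖z d‖ ≤ 1 → ∑ i, v i ^ 2 = 1 → x d v ∈ (KX P : Set (X ι)) := by
    intro d v hd hv
    exact ⟨hq, he, hv, mem_closedBall_zero_iff.2 hd⟩
  have eH : ∀ d v, xH f (x d v) = H := by
    intro d v; funext i l
    change R1 (Aq f q.2.1 q.2.2.1 q.2.2.2 - q.1) q.1 e i l +
      (H i l - R1 (Aq f q.2.1 q.2.2.1 q.2.2.2 - q.1) q.1 e i l) = H i l
    ring
  have eM : ∀ d v, xM f (x d v) = M := by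
    intro d v; funext i l
    change R1 (Bq f q.2.1 q.2.2.2 q.2.2.1 + q.1) (-q.1) e i l +
      (M i l - R1 (Bq f q.2.1 q.2.2.2 q.2.2.1 + q.1) (-q.1) e i l) = M i l
    ring
  have eG : ∀ d v, xG f (x d v) = G := by
    intro d v; funext i l
    change R1 (Cq f q.2.1 q.2.2.1 q.2.2.2 - q.1) q.1 e i l +
      (G i l - R1 (Cq f q.2.1 q.2.2.1 q.2.2.2 - q.1) q.1 e i l) = G i l
    ring
  have ey : ∀ d v, xy (x d v) = y := by
    intro d v; funext i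
    change 2 * q.2.2.1 * e i + (y i - 2 * q.2.2.1 * e i) = y i
    ring
  have eK : ∀ d v, xK f (x d v) = K := by
    intro d v
    change f * (q.2.2.1 - q.2.1) + (K - f * (q.2.2.1 - q.2.1)) = K
    ring
  have eg : ∀ v, xg f (x δ v) = gam (kap δ q.1) (sig K q.1 q.2.1 q.2.2.1 q.2.2.2) y := by
    intro v
    unfold xg
    rw [ey, eK]
    rfl
  obtain ⟨v0, hv0⟩ : ∃ v : ι → ℝ, ∑ i, v i ^ 2 = 1 := ⟨e, he⟩
  have h44 := H4 (x 0 v0) (mem 0 v0 ((hz 0 (by simpa using ρ0.le)).trans r5) hv0)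
    ((hz 0 (by simpa using ρ0.le)).trans r4)
  rw [eK, ey] at h44
  have hsi : 0 < sig K q.1 q.2.1 q.2.2.1 q.2.2.2 := hm4.trans_le h44.1
  have hL : 0 < L2 y := hm4.trans_le h44.2
  have hka : 0 < kap δ q.1 := mul_pos (by linarith) hs.k0
  have hgam : 0 < gam (kap δ q.1) (sig K q.1 q.2.1 q.2.2.1 q.2.2.2) y := by
    unfold gam
    have := mul_pos hsi hL
    linarith
  refine ⟨hka, hsi, hgam, hL, ?_, ?_, ?_, ?_⟩
  · -- hG
    intro v
    have := homog (m := 0) (fun v => (∑ i, ∑ l, G i l * v i * v l) - kap δ q.1 * ∑ i, v i ^ 2 -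
      sig K q.1 q.2.1 q.2.2.1 q.2.2.2 * (∑ i, y i * v i) ^ 2 - ρ * ∑ i, v i ^ 2) ?_ ?_ v
    · simp only [zero_mul] at this
      linarith
    · intro a v
      simp only [mul_pow, mul_sub, Finset.mul_sum]
      congr 1
      · congr 1
        · congr 1
          · refine Finset.sum_congr rfl fun i _ => Finset.sum_congr rfl fun l _ => by ring
          · refine Finset.sum_congr rfl fun i _ => by ring
        · have : ∑ i, y i * (a * v i) = a * ∑ i, y i * v i := by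
            rw [Finset.mul_sum]; exact Finset.sum_congr rfl fun i _ => by ring
          rw [this]; ring
      · refine Finset.sum_congr rfl fun i _ => by ring
    · intro v hv
      have h := H3 (x 0 v) (mem 0 v ((hz 0 (by simpa using ρ0.le)).trans r5) hv)
        ((hz 0 (by simpa using ρ0.le)).trans r3)
      unfold F3 at h
      rw [eG, ey, eK] at h
      have h' : m₃ ≤ (∑ i, ∑ l, G i l * v i * v l) - kap δ q.1 * ∑ i, v i ^ 2 -
        sig K q.1 q.2.1 q.2.2.1 q.2.2.2 * (∑ i, y i * v i) ^ 2 - ρ := h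
      rw [hv] at h' ⊢
      linarith
  · -- hN
    intro v
    have := homog (m := 0) (fun v => lam H M (gam (kap δ q.1) (sig K q.1 q.2.1 q.2.2.1 q.2.2.2) y)
      θ ρ * ∑ i, v i ^ 2 - ∑ i, ∑ l, N3 H M i l * v i * v l) ?_ ?_ v
    · simp only [zero_mul] at this
      linarith
    · intro a v
      simp only [mul_pow, mul_sub, Finset.mul_sum]
      congr 1
      · refine Finset.sum_congr rfl fun i _ => by ring
      · refine Finset.sum_congr rfl fun i _ => Finset.sum_congr rfl fun l _ => by ring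
    · intro v hv
      have h := (H12 (x δ v) (mem δ v hz1' hv) hz1).2
      unfold F2 at h
      rw [eH, eM, eg] at h
      have h' : m₁ ≤ lam H M (gam (kap δ q.1) (sig K q.1 q.2.1 q.2.2.1 q.2.2.2) y) θ ρ -
        ∑ i, ∑ l, N3 H M i l * v i * v l := h
      rw [hv]
      linarith
  · -- hg
    intro v
    have := homog (m := 0) (fun v => (∑ i, ∑ l, gg H M
      (gam (kap δ q.1) (sig K q.1 q.2.1 q.2.2.1 q.2.2.2) y) i l * v i * v l) -
      ρ * ∑ i, v i ^ 2) ?_ ?_ v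
    · simp only [zero_mul] at this
      linarith
    · intro a v
      simp only [mul_pow, mul_sub, Finset.mul_sum]
      congr 1
      · refine Finset.sum_congr rfl fun i _ => Finset.sum_congr rfl fun l _ => by ring
      · refine Finset.sum_congr rfl fun i _ => by ring
    · intro v hv
      have h := (H12 (x δ v) (mem δ v hz1' hv) hz1).1
      unfold F1 at h
      rw [eH, eM, eg] at h
      have h' : m₁ ≤ (∑ i, ∑ l, gg H M (gam (kap δ q.1) (sig K q.1 q.2.1 q.2.2.1 q.2.2.2) y) i l *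
        v i * v l) - ρ := h
      rw [hv]
      linarith
  · -- ht
    have h0 := hgam.ne'
    set g := gam (kap δ q.1) (sig K q.1 q.2.1 q.2.2.1 q.2.2.2) y
    have e1 : tN H M - lam H M g θ ρ = 1 / 4 * g * (ρ + HH H - 2 * (1 - θ) * tgH H M g) := by
      unfold lam; ring
    rw [e1]
    have e2 : 4 * (g⁻¹ * (1 / 4 * g * (ρ + HH H - 2 * (1 - θ) * tgH H M g))) =
        ρ + HH H - 2 * (1 - θ) * tgH H M g := by
      field_simp
    rw [e2]
    linarith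

end Vale.Agent.P088.R2.H312.T
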