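import Vale.Agent.P088.R2.H312.T.Pt

/-!
# The pointwise hypotheses on `|W_x| ≤ ρ E`
-/

open Set Filter Topology Finset

set_option linter.unusedSectionVars false

noncomputable section

namespace Vale.Agent.P088.R2.H312.T

variable {ι : Type*} [Fintype ι] [DecidableEq ι] {f : ℝ}

/-- `W_xx / E` for `W = Φ(u) + e^u S(|q|)`. -/
def Hmod (K k s s1 s2 : ℝ) (e h : ι → ℝ) (i l : ι) : ℝ :=
  (K + s) * (e i * e l) + s1 * (e i * h l + h i * e l) + s2 * (h i * h l) +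
    k * ((if i = l then 1 else 0) - h i * h l)

/-- `W_xy / E`. -/
def Mmod (K k s s1 s2 : ℝ) (e h : ι → ℝ) (i j : ι) : ℝ :=
  (K + s) * (e i * e j) - s1 * (e i * h j) + s1 * (h i * e j) - s2 * (h i * h j) -
    k * ((if i = j then 1 else 0) - h i * h j)

/-- `W_yy / E`. -/
def Gmod (K k s s1 s2 : ℝ) (e h : ι → ℝ) (j l : ι) : ℝ :=
  (K + s) * (e j * e l) - s1 * (e j * h l + h j * e l) + s2 * (h j * h l) +
    k * ((if j = l then 1 else 0) - h j * h l)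

/-- `W_y / E`. -/
def ymod (nu s s1 : ℝ) (e h : ι → ℝ) (j : ι) : ℝ := (nu + s) * e j - s1 * h j

/-- Errors. -/
abbrev Z2 (ι : Type*) := (ι → ι → ℝ) × (ι → ι → ℝ) × (ι → ι → ℝ) × (ι → ℝ) × ℝ

/-- Parameters `(q, e, h, ν, errors)`. -/
abbrev Y (ι : Type*) := (ℝ × ℝ × ℝ × ℝ) × (ι → ℝ) × (ι → ℝ) × ℝ × Z2 ι

section dev

variable (f : ℝ) (x : Y ι)

def dH (i l : ι) : ℝ :=
  Hmod (f * x.2.2.2.1 + x.2.2.2.2.2.2.2.2) x.1.1 x.1.2.1 x.1.2.2.1 x.1.2.2.2 x.2.1 x.2.2.1 i l +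
    x.2.2.2.2.1 i l - R1 (Aq f x.1.2.1 x.1.2.2.1 x.1.2.2.2 - x.1.1) x.1.1 x.2.1 i l

def dM (i l : ι) : ℝ :=
  Mmod (f * x.2.2.2.1 + x.2.2.2.2.2.2.2.2) x.1.1 x.1.2.1 x.1.2.2.1 x.1.2.2.2 x.2.1 x.2.2.1 i l +
    x.2.2.2.2.2.1 i l - R1 (Bq f x.1.2.1 x.1.2.2.2 x.1.2.2.1 + x.1.1) (-x.1.1) x.2.1 i l

def dG (i l : ι) : ℝ :=
  Gmod (f * x.2.2.2.1 + x.2.2.2.2.2.2.2.2) x.1.1 x.1.2.1 x.1.2.2.1 x.1.2.2.2 x.2.1 x.2.2.1 i l +
    x.2.2.2.2.2.2.1 i l - R1 (Cq f x.1.2.1 x.1.2.2.1 x.1.2.2.2 - x.1.1) x.1.1 x.2.1 i l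

def dy (i : ι) : ℝ :=
  ymod x.2.2.2.1 x.1.2.1 x.1.2.2.1 x.2.1 x.2.2.1 i + x.2.2.2.2.2.2.2.1 i - 2 * x.1.2.2.1 * x.2.1 i

def dK : ℝ := f * x.2.2.2.1 + x.2.2.2.2.2.2.2.2 - f * (x.1.2.2.1 - x.1.2.1)

/-- The smallness. -/
def wY (x : Y ι) : ℝ :=
  ‖fun i => (x.2.2.2.1 + x.1.2.1) * x.2.1 i + x.1.2.2.1 * x.2.2.1 i‖ + ‖x.2.2.2.2‖

/-- The compact set. -/
def KY (P : Set (ℝ × ℝ × ℝ × ℝ)) (N1 : ℝ) : Set (Y ι) :=
  P ×ˢ {e | ∑ i, e i ^ 2 = 1} ×ˢ {h | ∑ i, h i ^ 2 = 1} ×ˢ Icc 0 N1 ×ˢ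
    Metric.closedBall (0 : Z2 ι) 1

lemma KY_compact {P : Set (ℝ × ℝ × ℝ × ℝ)} (hP : IsCompact P) (N1 : ℝ) :
    IsCompact (KY P N1 : Set (Y ι)) :=
  hP.prod (sphere_compact.prod (sphere_compact.prod (isCompact_Icc.prod
    (isCompact_closedBall _ _))))

end dev

/-- On the zero set. -/
lemma zero_set {n : ℝ} {x : Y ι} (hS : Sc n f x.1.1 x.1.2.1 x.1.2.2.1 x.1.2.2.2)
    (hs : 0 ≤ x.1.2.1) (hn : 0 ≤ x.2.2.2.1)
    (he : ∑ i, x.2.1 i ^ 2 = 1) (hh : ∑ i, x.2.2.1 i ^ 2 = 1) (hw : wY x ≤ 0) :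
    x.2.2.2.1 + x.1.2.1 = x.1.2.2.1 ∧ (∀ i, x.2.2.1 i = -x.2.1 i) ∧ x.2.2.2.2 = 0 := by
  unfold wY at hw
  have h1 : ‖fun i => (x.2.2.2.1 + x.1.2.1) * x.2.1 i + x.1.2.2.1 * x.2.2.1 i‖ ≤ 0 := by
    have := norm_nonneg x.2.2.2.2
    linarith
  have h2 : ‖x.2.2.2.2‖ ≤ 0 := by
    have := norm_nonneg (fun i => (x.2.2.2.1 + x.1.2.1) * x.2.1 i + x.1.2.2.1 * x.2.2.1 i)
    linarith
  have h3 : ∀ i, (x.2.2.2.1 + x.1.2.1) * x.2.1 i = -(x.1.2.2.1 * x.2.2.1 i) := by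
    intro i
    have := congrFun (norm_le_zero_iff.1 h1) i
    simp only [Pi.zero_apply] at this
    linarith
  have h4 : (x.2.2.2.1 + x.1.2.1) ^ 2 = x.1.2.2.1 ^ 2 := by
    have e1 : ∑ i, ((x.2.2.2.1 + x.1.2.1) * x.2.1 i) ^ 2 = (x.2.2.2.1 + x.1.2.1) ^ 2 := by
      simp only [mul_pow, ← Finset.mul_sum]; rw [he, mul_one]
    have e2 : ∑ i, (-(x.1.2.2.1 * x.2.2.1 i)) ^ 2 = x.1.2.2.1 ^ 2 := by
      simp only [neg_sq, mul_pow, ← Finset.mul_sum]; rw [hh, mul_one]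
    rw [← e1, ← e2]
    exact Finset.sum_congr rfl fun i _ => by rw [h3 i]
  have h5 : x.2.2.2.1 + x.1.2.1 = x.1.2.2.1 := by
    have := hS.s10
    exact (sq_eq_sq₀ (by linarith) this.le).1 h4
  refine ⟨h5, fun i => ?_, norm_le_zero_iff.1 h2⟩
  have h6 := h3 i
  rw [h5] at h6
  have := hS.s10
  have h7 : x.1.2.2.1 * (x.2.2.1 i + x.2.1 i) = 0 := by linarith
  rcases mul_eq_zero.1 h7 with h | h
  · linarith
  · linarith

section main

variable {P : Set (ℝ × ℝ × ℝ × ℝ)} (hP : IsCompact P)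
  (hS : ∀ q ∈ P, Sc (Fintype.card ι) f q.1 q.2.1 q.2.2.1 q.2.2.2) (hs : ∀ q ∈ P, 0 ≤ q.2.1)
  (N1 : ℝ) {ρ : ℝ} (hρ : 0 < ρ)

include hP hS hs hρ

theorem close_all : ∃ ρ' > 0, ∀ x ∈ (KY P N1 : Set (Y ι)), wY x ≤ ρ' →
    ‖(dH f x : ι → ι → ℝ)‖ ≤ ρ ∧ ‖(dM f x : ι → ι → ℝ)‖ ≤ ρ ∧ ‖(dG f x : ι → ι → ℝ)‖ ≤ ρ ∧
      ‖(dy x : ι → ℝ)‖ ≤ ρ ∧ |dK f x| ≤ ρ := by
  have hw : ContinuousOn (wY : Y ι → ℝ) (KY P N1 : Set (Y ι)) := by
    unfold wY; fun_prop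
  have gen : ∀ F : Y ι → ℝ, Continuous F → (∀ x ∈ (KY P N1 : Set (Y ι)),
      x.2.2.2.1 + x.1.2.1 = x.1.2.2.1 → (∀ i, x.2.2.1 i = -x.2.1 i) → x.2.2.2.2 = 0 → F x = 0) →
      ∃ ρ' > 0, ∀ x ∈ (KY P N1 : Set (Y ι)), wY x ≤ ρ' → F x ≤ ρ := by
    intro F hF h0
    obtain ⟨ρ', h1, m, hm, H⟩ := pos_near (KY_compact hP N1) hw (F := fun x => ρ - F x) (by
      rintro x ⟨h1, h2, h3, h4, h5⟩ hw0
      obtain ⟨a1, a2, a3⟩ := zero_set (hS _ h1) (hs _ h1) h4.1 h2 h3 hw0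
      refine ⟨(continuous_const.sub hF).continuousWithinAt, ?_⟩
      rw [h0 x ⟨h1, h2, h3, h4, h5⟩ a1 a2 a3]
      linarith)
    exact ⟨ρ', h1, fun x hx hwx => by have := H x hx hwx; linarith⟩
  obtain ⟨r1, p1, H1⟩ := gen (fun x => ‖(dH f x : ι → ι → ℝ)‖) (by
    have : Continuous (fun x : Y ι => (dH f x : ι → ι → ℝ)) := by
      refine continuous_pi fun i => continuous_pi fun l => ?_
      unfold dH Hmod R1 Aq; fun_prop
    exact this.norm) (by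
    intro x _ a1 a2 a3
    rw [norm_eq_zero]
    funext i l
    unfold dH Hmod R1 Aq
    have hk : x.2.2.2.1 = x.1.2.2.1 - x.1.2.1 := by linarith
    simp only [a2, a3, hk, Prod.snd_zero, Prod.fst_zero, Pi.zero_apply]
    ring)
  obtain ⟨r2, p2, H2⟩ := gen (fun x => ‖(dM f x : ι → ι → ℝ)‖) (by
    have : Continuous (fun x : Y ι => (dM f x : ι → ι → ℝ)) := by
      refine continuous_pi fun i => continuous_pi fun l => ?_
      unfold dM Mmod R1 Bq; fun_prop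
    exact this.norm) (by
    intro x _ a1 a2 a3
    rw [norm_eq_zero]
    funext i l
    unfold dM Mmod R1 Bq
    have hk : x.2.2.2.1 = x.1.2.2.1 - x.1.2.1 := by linarith
    simp only [a2, a3, hk, Prod.snd_zero, Prod.fst_zero, Pi.zero_apply]
    ring)
  obtain ⟨r3, p3, H3⟩ := gen (fun x => ‖(dG f x : ι → ι → ℝ)‖) (by
    have : Continuous (fun x : Y ι => (dG f x : ι → ι → ℝ)) := by
      refine continuous_pi fun i => continuous_pi fun l => ?_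
      unfold dG Gmod R1 Cq; fun_prop
    exact this.norm) (by
    intro x _ a1 a2 a3
    rw [norm_eq_zero]
    funext i l
    unfold dG Gmod R1 Cq
    have hk : x.2.2.2.1 = x.1.2.2.1 - x.1.2.1 := by linarith
    simp only [a2, a3, hk, Prod.snd_zero, Prod.fst_zero, Pi.zero_apply]
    ring)
  obtain ⟨r4, p4, H4⟩ := gen (fun x => ‖(dy x : ι → ℝ)‖) (by
    have : Continuous (fun x : Y ι => (dy x : ι → ℝ)) := by
      refine continuous_pi fun i => ?_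
      unfold dy ymod; fun_prop
    exact this.norm) (by
    intro x _ a1 a2 a3
    rw [norm_eq_zero]
    funext i
    unfold dy ymod
    have hk : x.2.2.2.1 = x.1.2.2.1 - x.1.2.1 := by linarith
    simp only [a2, a3, hk, Prod.snd_zero, Prod.fst_zero, Pi.zero_apply]
    ring)
  obtain ⟨r5, p5, H5⟩ := gen (fun x => |dK f x|) (by unfold dK; fun_prop) (by
    intro x _ a1 a2 a3
    rw [abs_eq_zero]
    unfold dK
    have hk : x.2.2.2.1 = x.1.2.2.1 - x.1.2.1 := by linarith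
    simp only [a3, hk, Prod.snd_zero]
    ring)
  refine ⟨min (min r1 r2) (min r3 (min r4 r5)), by positivity, fun x hx hwx => ?_⟩
  have l1 : wY x ≤ r1 := hwx.trans ((min_le_left _ _).trans (min_le_left _ _))
  have l2 : wY x ≤ r2 := hwx.trans ((min_le_left _ _).trans (min_le_right _ _))
  have l3 : wY x ≤ r3 := hwx.trans ((min_le_right _ _).trans (min_le_left _ _))
  have l4 : wY x ≤ r4 := hwx.trans ((min_le_right _ _).trans ((min_le_right _ _).trans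
    (min_le_left _ _)))
  have l5 : wY x ≤ r5 := hwx.trans ((min_le_right _ _).trans ((min_le_right _ _).trans
    (min_le_right _ _)))
  exact ⟨H1 x hx l1, H2 x hx l2, H3 x hx l3, H4 x hx l4, H5 x hx l5⟩

end main

/-- **The pointwise hypotheses of the tube theorem where `|W_x| ≤ ρ E`.** Units of `E`; `ν = Φ'/E`,
`κ = Φ''/E = f ν + O(ρ)`, `q = (S'/r, S, S', S'')`. -/
theorem tube_pt2 {P : Set (ℝ × ℝ × ℝ × ℝ)} (hP : IsCompact P)
    (hS : ∀ q ∈ P, Sc (Fintype.card ι) f q.1 q.2.1 q.2.2.1 q.2.2.2) (hs : ∀ q ∈ P, 0 ≤ q.2.1)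
    (N1 : ℝ) :
    ∃ ρ δ θ c : ℝ, 0 < ρ ∧ 0 < δ ∧ δ < 1 ∧ 0 < θ ∧ θ < 1 ∧ 0 < c ∧ ∀ q ∈ P, ∀ e h : ι → ℝ,
      ∑ i, e i ^ 2 = 1 → ∑ i, h i ^ 2 = 1 → ∀ nu K : ℝ, 0 ≤ nu → nu ≤ N1 → |K - f * nu| ≤ ρ →
      (∀ i, |(nu + q.2.1) * e i + q.2.2.1 * h i| ≤ ρ) → ∀ (H M G : ι → ι → ℝ) (y : ι → ℝ),
      (∀ i l, |H i l - Hmod K q.1 q.2.1 q.2.2.1 q.2.2.2 e h i l| ≤ ρ) →
      (∀ i l, |M i l - Mmod K q.1 q.2.1 q.2.2.1 q.2.2.2 e h i l| ≤ ρ) →
      (∀ i l, |G i l - Gmod K q.1 q.2.1 q.2.2.1 q.2.2.2 e h i l| ≤ ρ) →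
      (∀ i, |y i - ymod nu q.2.1 q.2.2.1 e h i| ≤ ρ) →
      Hyp H M G y (kap δ q.1) (sig K q.1 q.2.1 q.2.2.1 q.2.2.2) θ c := by
  obtain ⟨ρ, δ, θ, c, hρ, h1, h2, h3, h4, h5, H0⟩ := tube_pt (ι := ι) hP hS
  obtain ⟨ρ', hρ', H1⟩ := close_all (ι := ι) hP hS hs N1 hρ
  set t := min (ρ' / 2) 1 with ht
  have t0 : 0 < t := lt_min (by linarith) one_pos
  have t1 : t ≤ ρ' / 2 := min_le_left _ _
  have t2 : t ≤ 1 := min_le_right _ _
  refine ⟨t, δ, θ, c, t0, h1, h2, h3, h4, h5, ?_⟩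
  intro q hq e h he hh nu K hn0 hn1 hK hx H M G y hH hM hG hy
  let z : Z2 ι := (fun i l => H i l - Hmod K q.1 q.2.1 q.2.2.1 q.2.2.2 e h i l,
    fun i l => M i l - Mmod K q.1 q.2.1 q.2.2.1 q.2.2.2 e h i l,
    fun i l => G i l - Gmod K q.1 q.2.1 q.2.2.1 q.2.2.2 e h i l,
    fun i => y i - ymod nu q.2.1 q.2.2.1 e h i, K - f * nu)
  have hm : ∀ D : ι → ι → ℝ, (∀ i l, |D i l| ≤ t) → ‖D‖ ≤ t := fun D h =>
    (pi_norm_le_iff_of_nonneg t0.le).2 fun i => (pi_norm_le_iff_of_nonneg t0.le).2 fun l => by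
      rw [Real.norm_eq_abs]; exact h i l
  have hz : ‖z‖ ≤ t := by
    refine Prod.norm_def z ▸ max_le (hm _ hH) ?_
    refine Prod.norm_def z.2 ▸ max_le (hm _ hM) ?_
    refine Prod.norm_def z.2.2 ▸ max_le (hm _ hG) ?_
    refine Prod.norm_def z.2.2.2 ▸ max_le ((pi_norm_le_iff_of_nonneg t0.le).2 fun i => by
      rw [Real.norm_eq_abs]; exact hy i) (by rw [Real.norm_eq_abs]; exact hK)
  let x : Y ι := (q, e, h, nu, z)
  have hxK : x ∈ (KY P N1 : Set (Y ι)) :=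
    ⟨hq, he, hh, ⟨hn0, hn1⟩, mem_closedBall_zero_iff.2 (hz.trans t2)⟩
  have hw : wY x ≤ ρ' := by
    unfold wY
    have e1 : ‖fun i => (x.2.2.2.1 + x.1.2.1) * x.2.1 i + x.1.2.2.1 * x.2.2.1 i‖ ≤ t :=
      (pi_norm_le_iff_of_nonneg t0.le).2 fun i => by rw [Real.norm_eq_abs]; exact hx i
    have e2 : ‖x.2.2.2.2‖ ≤ t := hz
    linarith
  obtain ⟨a1, a2, a3, a4, a5⟩ := H1 x hxK hw
  have kK : f * nu + (K - f * nu) = K := by ring
  have en : ∀ D : ι → ι → ℝ, ‖D‖ ≤ ρ → ∀ i l, |D i l| ≤ ρ := fun D h i l => by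
    rw [← Real.norm_eq_abs]
    exact (norm_le_pi_norm (D i) l).trans ((norm_le_pi_norm D i).trans h)
  refine H0 q hq e he H M G y K (fun i l => ?_) (fun i l => ?_) (fun i l => ?_) (fun i => ?_) ?_
  · have := en _ a1 i l
    have e1 : dH f x i l = H i l - R1 (Aq f q.2.1 q.2.2.1 q.2.2.2 - q.1) q.1 e i l := by
      change Hmod (f * nu + (K - f * nu)) q.1 q.2.1 q.2.2.1 q.2.2.2 e h i l +
        (H i l - Hmod K q.1 q.2.1 q.2.2.1 q.2.2.2 e h i l) - _ = _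
      rw [kK]; ring
    rwa [e1] at this
  · have := en _ a2 i l
    have e1 : dM f x i l = M i l - R1 (Bq f q.2.1 q.2.2.2 q.2.2.1 + q.1) (-q.1) e i l := by
      change Mmod (f * nu + (K - f * nu)) q.1 q.2.1 q.2.2.1 q.2.2.2 e h i l +
        (M i l - Mmod K q.1 q.2.1 q.2.2.1 q.2.2.2 e h i l) - _ = _
      rw [kK]; ring
    rwa [e1] at this
  · have := en _ a3 i l
    have e1 : dG f x i l = G i l - R1 (Cq f q.2.1 q.2.2.1 q.2.2.2 - q.1) q.1 e i l := by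
      change Gmod (f * nu + (K - f * nu)) q.1 q.2.1 q.2.2.1 q.2.2.2 e h i l +
        (G i l - Gmod K q.1 q.2.1 q.2.2.1 q.2.2.2 e h i l) - _ = _
      rw [kK]; ring
    rwa [e1] at this
  · have := (norm_le_pi_norm (dy x) i).trans a4
    have e1 : dy x i = y i - 2 * q.2.2.1 * e i := by
      change ymod nu q.2.1 q.2.2.1 e h i + (y i - ymod nu q.2.1 q.2.2.1 e h i) - _ = _
      ring
    rwa [e1, Real.norm_eq_abs] at this
  · have e1 : dK f x = K - f * (q.2.2.1 - q.2.1) := by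
      change f * nu + (K - f * nu) - f * (q.2.2.1 - q.2.1) = _
      ring
    rwa [e1] at a5

/-- The scaled form: `W_xx = E H`, ... -/
structure HypE (H M G : ι → ι → ℝ) (y : ι → ℝ) (ka si θ c E : ℝ) : Prop where
  k0 : 0 < ka
  s0 : 0 < si
  g0 : 0 < gam ka si y
  L0 : 0 < L2 y
  hG : ∀ v : ι → ℝ, ka * ∑ i, v i ^ 2 + si * (∑ i, y i * v i) ^ 2 + c * E * ∑ i, v i ^ 2 ≤
    ∑ i, ∑ l, G i l * v i * v l
  hN : ∀ v : ι → ℝ, ∑ i, ∑ l, N3 H M i l * v i * v l ≤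
    lam H M (gam ka si y) θ (c * E ^ 2) * ∑ i, v i ^ 2
  hg : ∀ v : ι → ℝ, c * E * ∑ i, v i ^ 2 ≤ ∑ i, ∑ l, gg H M (gam ka si y) i l * v i * v l
  ht : c * E ^ 2 ≤ 2 * (1 - θ) * tgH H M (gam ka si y) +
    4 * ((gam ka si y)⁻¹ * (tN H M - lam H M (gam ka si y) θ (c * E ^ 2))) - HH H

theorem Hyp.scale {H M G : ι → ι → ℝ} {y : ι → ℝ} {ka si θ c E : ℝ} (hE : 0 < E)
    (h : Hyp H M G y ka si θ c) :
    HypE (fun i l => E * H i l) (fun i l => E * M i l) (fun i l => E * G i l) (fun i => E * y i)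
      (E * ka) (si / E) θ c E := by
  have eL : L2 (fun i => E * y i) = E ^ 2 * L2 y := by
    unfold L2; rw [Finset.mul_sum]; exact Finset.sum_congr rfl fun i _ => by ring
  have eg : gam (E * ka) (si / E) (fun i => E * y i) = E * gam ka si y := by
    unfold gam; rw [eL]; field_simp
  have h0 := h.g0.ne'
  have hE' := hE.ne'
  have egg : ∀ i l, gg (fun i l => E * H i l) (fun i l => E * M i l) (E * gam ka si y) i l =
      E * gg H M (gam ka si y) i l := by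
    intro i l
    unfold gg
    have : ∑ j, E * M i j * (E * M l j) = E ^ 2 * ∑ j, M i j * M l j := by
      rw [Finset.mul_sum]; exact Finset.sum_congr rfl fun j _ => by ring
    rw [this]
    field_simp
  have eN : ∀ j l, N3 (fun i l => E * H i l) (fun i l => E * M i l) j l = E ^ 3 * N3 H M j l := by
    intro j l
    unfold N3
    rw [Finset.mul_sum]
    refine Finset.sum_congr rfl fun i _ => ?_
    rw [Finset.mul_sum]
    exact Finset.sum_congr rfl fun j _ => by ring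
  have etN : tN (fun i l => E * H i l) (fun i l => E * M i l) = E ^ 3 * tN H M := by
    unfold tN; rw [Finset.mul_sum]; exact Finset.sum_congr rfl fun j _ => eN j j
  have eHH : HH (fun i l => E * H i l) = E ^ 2 * HH H := by
    unfold HH
    rw [Finset.mul_sum]
    refine Finset.sum_congr rfl fun i _ => ?_
    rw [Finset.mul_sum]
    exact Finset.sum_congr rfl fun j _ => by ring
  have etg : tgH (fun i l => E * H i l) (fun i l => E * M i l) (E * gam ka si y) =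
      E ^ 2 * tgH H M (gam ka si y) := by
    unfold tgH
    rw [Finset.mul_sum]
    refine Finset.sum_congr rfl fun i _ => ?_
    rw [Finset.mul_sum]
    exact Finset.sum_congr rfl fun j _ => by rw [egg]; ring
  have elam : lam (fun i l => E * H i l) (fun i l => E * M i l) (E * gam ka si y) θ (c * E ^ 2) =
      E ^ 3 * lam H M (gam ka si y) θ c := by
    unfold lam; rw [etN, eHH, etg]; ring
  refine ⟨by have := h.k0; positivity, div_pos h.s0 hE, ?_, ?_, ?_, ?_, ?_, ?_⟩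
  · rw [eg]; exact mul_pos hE h.g0
  · rw [eL]; have := h.L0; positivity
  · intro v
    have h1 := mul_le_mul_of_nonneg_left (h.hG v) hE.le
    have e1 : ∑ i, E * y i * v i = E * ∑ i, y i * v i := by
      rw [Finset.mul_sum]; exact Finset.sum_congr rfl fun i _ => by ring
    have e2 : ∑ i, ∑ l, E * G i l * v i * v l = E * ∑ i, ∑ l, G i l * v i * v l := by
      rw [Finset.mul_sum]
      refine Finset.sum_congr rfl fun i _ => ?_
      rw [Finset.mul_sum]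
      exact Finset.sum_congr rfl fun j _ => by ring
    rw [e1, e2]
    refine le_trans (le_of_eq ?_) h1
    field_simp
  · intro v
    rw [eg, elam]
    have h1 := mul_le_mul_of_nonneg_left (h.hN v) (by positivity : 0 ≤ E ^ 3)
    have e2 : ∑ i, ∑ l, N3 (fun i l => E * H i l) (fun i l => E * M i l) i l * v i * v l =
        E ^ 3 * ∑ i, ∑ l, N3 H M i l * v i * v l := by
      rw [Finset.mul_sum]
      refine Finset.sum_congr rfl fun i _ => ?_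
      rw [Finset.mul_sum]
      exact Finset.sum_congr rfl fun j _ => by rw [eN]; ring
    rw [e2]
    linarith
  · intro v
    rw [eg]
    have h1 := mul_le_mul_of_nonneg_left (h.hg v) hE.le
    have e2 : ∑ i, ∑ l, gg (fun i l => E * H i l) (fun i l => E * M i l) (E * gam ka si y) i l *
        v i * v l = E * ∑ i, ∑ l, gg H M (gam ka si y) i l * v i * v l := by
      rw [Finset.mul_sum]
      refine Finset.sum_congr rfl fun i _ => ?_
      rw [Finset.mul_sum]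
      exact Finset.sum_congr rfl fun j _ => by rw [egg]; ring
    rw [e2]
    linarith
  · rw [eg, elam, etg, etN, eHH]
    have h1 := mul_le_mul_of_nonneg_left h.ht (by positivity : 0 ≤ E ^ 2)
    refine le_trans (le_of_eq (by ring)) (h1.trans (le_of_eq ?_))
    field_simp

end Vale.Agent.P088.R2.H312.T
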