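import Vale.Agent.P088.R2.H312.T.Pt2

/-!
# The pointwise hypotheses for `W = Φ(u) + e^u S(|q|²)`
-/

open Set Filter Topology Finset

set_option linter.unusedSectionVars false

noncomputable section

namespace Vale.Agent.P088.R2.H312.T

variable {ι : Type*} [Fintype ι] [DecidableEq ι] {f : ℝ}

/-- `W_xx / E`, exact: `p = D l(x)`, `P = D² l(x)`, `k = S'/r`, `t = (S'' - S'/r)/r²`. -/
def Hex (nu K s k t : ℝ) (p q : ι → ℝ) (P : ι → ι → ℝ) (i l : ι) : ℝ :=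
  (K + s) * (p i * p l) + (nu + s) * P i l + k * (p i * q l + q i * p l) +
    k * (if i = l then 1 else 0) + t * (q i * q l)

/-- `W_xy / E`. -/
def Mex (K s k t : ℝ) (p p' q : ι → ℝ) (i j : ι) : ℝ :=
  (K + s) * (p i * p' j) - k * (p i * q j - q i * p' j) - k * (if i = j then 1 else 0) -
    t * (q i * q j)

/-- `W_yy / E`. -/
def Gex (nu K s k t : ℝ) (p' q : ι → ℝ) (P' : ι → ι → ℝ) (j l : ι) : ℝ :=
  (K + s) * (p' j * p' l) + (nu + s) * P' j l - k * (p' j * q l + q j * p' l) +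
    k * (if j = l then 1 else 0) + t * (q j * q l)

/-- `W_y / E`. -/
def yex (nu s k : ℝ) (p' q : ι → ℝ) (j : ι) : ℝ := (nu + s) * p' j - k * q j

/-- Errors `(p - e, p' - e, P, P', K - f ν)`. -/
abbrev Z3 (ι : Type*) := (ι → ℝ) × (ι → ℝ) × (ι → ι → ℝ) × (ι → ι → ℝ) × ℝ

/-- Parameters `(q, e, h, ν, errors)`. -/
abbrev Y3 (ι : Type*) := (ℝ × ℝ × ℝ × ℝ) × (ι → ℝ) × (ι → ℝ) × ℝ × Z3 ι

section dev3

variable (f : ℝ) (x : Y3 ι)

def K3 : ℝ := f * x.2.2.2.1 + x.2.2.2.2.2.2.2.2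

def eH (i l : ι) : ℝ :=
  (K3 f x + x.1.2.1) * ((x.2.1 i + x.2.2.2.2.1 i) * (x.2.1 l + x.2.2.2.2.1 l)) +
    (x.2.2.2.1 + x.1.2.1) * x.2.2.2.2.2.2.1 i l +
    x.1.2.2.1 * ((x.2.1 i + x.2.2.2.2.1 i) * x.2.2.1 l + x.2.2.1 i * (x.2.1 l + x.2.2.2.2.1 l)) +
    x.1.1 * (if i = l then 1 else 0) + (x.1.2.2.2 - x.1.1) * (x.2.2.1 i * x.2.2.1 l) -
    Hmod (K3 f x) x.1.1 x.1.2.1 x.1.2.2.1 x.1.2.2.2 x.2.1 x.2.2.1 i l

def eM (i l : ι) : ℝ :=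
  (K3 f x + x.1.2.1) * ((x.2.1 i + x.2.2.2.2.1 i) * (x.2.1 l + x.2.2.2.2.2.1 l)) -
    x.1.2.2.1 * ((x.2.1 i + x.2.2.2.2.1 i) * x.2.2.1 l -
      x.2.2.1 i * (x.2.1 l + x.2.2.2.2.2.1 l)) -
    x.1.1 * (if i = l then 1 else 0) - (x.1.2.2.2 - x.1.1) * (x.2.2.1 i * x.2.2.1 l) -
    Mmod (K3 f x) x.1.1 x.1.2.1 x.1.2.2.1 x.1.2.2.2 x.2.1 x.2.2.1 i l

def eG (i l : ι) : ℝ :=
  (K3 f x + x.1.2.1) * ((x.2.1 i + x.2.2.2.2.2.1 i) * (x.2.1 l + x.2.2.2.2.2.1 l)) +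
    (x.2.2.2.1 + x.1.2.1) * x.2.2.2.2.2.2.2.1 i l -
    x.1.2.2.1 * ((x.2.1 i + x.2.2.2.2.2.1 i) * x.2.2.1 l +
      x.2.2.1 i * (x.2.1 l + x.2.2.2.2.2.1 l)) +
    x.1.1 * (if i = l then 1 else 0) + (x.1.2.2.2 - x.1.1) * (x.2.2.1 i * x.2.2.1 l) -
    Gmod (K3 f x) x.1.1 x.1.2.1 x.1.2.2.1 x.1.2.2.2 x.2.1 x.2.2.1 i l

def ey (i : ι) : ℝ :=
  (x.2.2.2.1 + x.1.2.1) * (x.2.1 i + x.2.2.2.2.2.1 i) - x.1.2.2.1 * x.2.2.1 i -
    ymod x.2.2.2.1 x.1.2.1 x.1.2.2.1 x.2.1 x.2.2.1 i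

def ex (i : ι) : ℝ := (x.2.2.2.1 + x.1.2.1) * x.2.1 i + x.1.2.2.1 * x.2.2.1 i

/-- The smallness. -/
def wY3 (x : Y3 ι) : ℝ :=
  ‖fun i => (x.2.2.2.1 + x.1.2.1) * (x.2.1 i + x.2.2.2.2.1 i) + x.1.2.2.1 * x.2.2.1 i‖ +
    ‖x.2.2.2.2‖

/-- The compact set. -/
def KY3 (P : Set (ℝ × ℝ × ℝ × ℝ)) (N1 : ℝ) : Set (Y3 ι) :=
  P ×ˢ {e | ∑ i, e i ^ 2 = 1} ×ˢ {h | ∑ i, h i ^ 2 = 1} ×ˢ Icc 0 N1 ×ˢ
    Metric.closedBall (0 : Z3 ι) 1

lemma KY3_compact {P : Set (ℝ × ℝ × ℝ × ℝ)} (hP : IsCompact P) (N1 : ℝ) :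
    IsCompact (KY3 P N1 : Set (Y3 ι)) :=
  hP.prod (sphere_compact.prod (sphere_compact.prod (isCompact_Icc.prod
    (isCompact_closedBall _ _))))

end dev3

lemma zero_set3 {x : Y3 ι} (hw : wY3 x ≤ 0) : x.2.2.2.2 = 0 ∧ ∀ i, ex x i = 0 := by
  unfold wY3 at hw
  have h2 : ‖x.2.2.2.2‖ ≤ 0 := by
    have := norm_nonneg (fun i => (x.2.2.2.1 + x.1.2.1) * (x.2.1 i + x.2.2.2.2.1 i) +
      x.1.2.2.1 * x.2.2.1 i)
    linarith
  have h1 : ‖fun i => (x.2.2.2.1 + x.1.2.1) * (x.2.1 i + x.2.2.2.2.1 i) +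
      x.1.2.2.1 * x.2.2.1 i‖ ≤ 0 := by
    have := norm_nonneg x.2.2.2.2
    linarith
  have h3 := norm_le_zero_iff.1 h2
  refine ⟨h3, fun i => ?_⟩
  have h4 := congrFun (norm_le_zero_iff.1 h1) i
  rw [h3] at h4
  simpa [ex] using h4

theorem close3 {P : Set (ℝ × ℝ × ℝ × ℝ)} (hP : IsCompact P) (N1 : ℝ) {ρ : ℝ} (hρ : 0 < ρ) :
    ∃ ρ' > 0, ∀ x ∈ (KY3 P N1 : Set (Y3 ι)), wY3 x ≤ ρ' →
    ‖(eH f x : ι → ι → ℝ)‖ ≤ ρ ∧ ‖(eM f x : ι → ι → ℝ)‖ ≤ ρ ∧ ‖(eG f x : ι → ι → ℝ)‖ ≤ ρ ∧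
      ‖(ey x : ι → ℝ)‖ ≤ ρ ∧ ‖(ex x : ι → ℝ)‖ ≤ ρ := by
  have hw : ContinuousOn (wY3 : Y3 ι → ℝ) (KY3 P N1 : Set (Y3 ι)) := by
    unfold wY3; fun_prop
  have gen : ∀ F : Y3 ι → ℝ, Continuous F → (∀ x ∈ (KY3 P N1 : Set (Y3 ι)),
      x.2.2.2.2 = 0 → (∀ i, ex x i = 0) → F x = 0) →
      ∃ ρ' > 0, ∀ x ∈ (KY3 P N1 : Set (Y3 ι)), wY3 x ≤ ρ' → F x ≤ ρ := by
    intro F hF h0
    obtain ⟨ρ', h1, m, hm, H⟩ := pos_near (KY3_compact hP N1) hw (F := fun x => ρ - F x) (by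
      intro x hx hw0
      obtain ⟨a1, a2⟩ := zero_set3 hw0
      refine ⟨(continuous_const.sub hF).continuousWithinAt, ?_⟩
      rw [h0 x hx a1 a2]
      linarith)
    exact ⟨ρ', h1, fun x hx hwx => by have := H x hx hwx; linarith⟩
  obtain ⟨r1, p1, H1⟩ := gen (fun x => ‖(eH f x : ι → ι → ℝ)‖) (by
    have : Continuous (fun x : Y3 ι => (eH f x : ι → ι → ℝ)) := by
      refine continuous_pi fun i => continuous_pi fun l => ?_
      unfold eH Hmod K3; fun_prop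
    exact this.norm) (by
    intro x _ a1 a2
    rw [norm_eq_zero]
    funext i l
    unfold eH Hmod
    simp only [a1, Prod.snd_zero, Prod.fst_zero, Pi.zero_apply]
    ring)
  obtain ⟨r2, p2, H2⟩ := gen (fun x => ‖(eM f x : ι → ι → ℝ)‖) (by
    have : Continuous (fun x : Y3 ι => (eM f x : ι → ι → ℝ)) := by
      refine continuous_pi fun i => continuous_pi fun l => ?_
      unfold eM Mmod K3; fun_prop
    exact this.norm) (by
    intro x _ a1 a2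
    rw [norm_eq_zero]
    funext i l
    unfold eM Mmod
    simp only [a1, Prod.snd_zero, Prod.fst_zero, Pi.zero_apply]
    ring)
  obtain ⟨r3, p3, H3⟩ := gen (fun x => ‖(eG f x : ι → ι → ℝ)‖) (by
    have : Continuous (fun x : Y3 ι => (eG f x : ι → ι → ℝ)) := by
      refine continuous_pi fun i => continuous_pi fun l => ?_
      unfold eG Gmod K3; fun_prop
    exact this.norm) (by
    intro x _ a1 a2
    rw [norm_eq_zero]
    funext i l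
    unfold eG Gmod
    simp only [a1, Prod.snd_zero, Prod.fst_zero, Pi.zero_apply]
    ring)
  obtain ⟨r4, p4, H4⟩ := gen (fun x => ‖(ey x : ι → ℝ)‖) (by
    have : Continuous (fun x : Y3 ι => (ey x : ι → ℝ)) := by
      refine continuous_pi fun i => ?_
      unfold ey ymod; fun_prop
    exact this.norm) (by
    intro x _ a1 a2
    rw [norm_eq_zero]
    funext i
    unfold ey ymod
    simp only [a1, Prod.snd_zero, Prod.fst_zero, Pi.zero_apply]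
    ring)
  obtain ⟨r5, p5, H5⟩ := gen (fun x => ‖(ex x : ι → ℝ)‖) (by
    have : Continuous (fun x : Y3 ι => (ex x : ι → ℝ)) := by
      refine continuous_pi fun i => ?_
      unfold ex; fun_prop
    exact this.norm) (by
    intro x _ a1 a2
    rw [norm_eq_zero]
    funext i
    exact a2 i)
  refine ⟨min (min r1 r2) (min r3 (min r4 r5)), by positivity, fun x hx hwx => ?_⟩
  have l1 : wY3 x ≤ r1 := hwx.trans ((min_le_left _ _).trans (min_le_left _ _))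
  have l2 : wY3 x ≤ r2 := hwx.trans ((min_le_left _ _).trans (min_le_right _ _))
  have l3 : wY3 x ≤ r3 := hwx.trans ((min_le_right _ _).trans (min_le_left _ _))
  have l4 : wY3 x ≤ r4 := hwx.trans ((min_le_right _ _).trans ((min_le_right _ _).trans
    (min_le_left _ _)))
  have l5 : wY3 x ≤ r5 := hwx.trans ((min_le_right _ _).trans ((min_le_right _ _).trans
    (min_le_right _ _)))
  exact ⟨H1 x hx l1, H2 x hx l2, H3 x hx l3, H4 x hx l4, H5 x hx l5⟩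

/-- `|e| = 1` near `p`. -/
lemma unit_near {ρ : ℝ} (hρ : ρ ≤ 1 / 2) {p : ι → ℝ} (hp : |∑ i, p i ^ 2 - 1| ≤ ρ) :
    ∃ e : ι → ℝ, ∑ i, e i ^ 2 = 1 ∧ ∀ i, |p i - e i| ≤ 2 * ρ := by
  have h1 := abs_le.1 hp
  set T := ∑ i, p i ^ 2 with hT
  have T0 : 1 / 2 ≤ T := by linarith [h1.1]
  have hs : 0 < √T := Real.sqrt_pos.2 (by linarith)
  have hs2 : √T ^ 2 = T := Real.sq_sqrt (by linarith)
  refine ⟨fun i => p i / √T, ?_, fun i => ?_⟩
  · simp only [div_pow, hs2, ← Finset.sum_div]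
    rw [← hT]
    exact div_self (by linarith)
  · have a1 : |√T - 1| ≤ ρ := by
      have e1 : (√T - 1) * (√T + 1) = T - 1 := by nlinarith
      have e2 : |√T - 1| * (√T + 1) ≤ ρ := by
        rw [← abs_of_pos (by linarith : 0 < √T + 1), ← abs_mul, e1]; exact hp
      nlinarith [abs_nonneg (√T - 1)]
    have a2 : |p i| ≤ √T := by
      rw [← Real.sqrt_sq_eq_abs]
      exact Real.sqrt_le_sqrt (Finset.single_le_sum (f := fun i => p i ^ 2)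
        (fun i _ => sq_nonneg _) (Finset.mem_univ i))
    have e3 : p i - p i / √T = (p i / √T) * (√T - 1) := by field_simp
    rw [e3, abs_mul, abs_div, abs_of_pos hs]
    have a3 : |p i| / √T ≤ 1 := (div_le_one hs).2 a2
    have := mul_le_mul a3 a1 (abs_nonneg _) zero_le_one
    have hρ0 : 0 ≤ ρ := (abs_nonneg _).trans hp
    linarith

/-- `ν` is bounded where `W_x` is small. -/
lemma nu_bd {k s nu τ M b : ℝ} {p q : ι → ℝ} (hτ : τ = ∑ i, q i ^ 2) (τ0 : 0 ≤ τ) (hb : τ ≤ b)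
    (hnu : 0 ≤ nu) (hs : 0 ≤ s) (hk : 0 ≤ k) (hkM : k ≤ M) (hp : 1 / 2 ≤ ∑ i, p i ^ 2)
    (hx : ∀ i, |(nu + s) * p i + k * q i| ≤ 1) :
    nu ≤ 2 * (M * √b) + 2 * (Fintype.card ι + 1) := by
  have a2 : (0 : ℝ) ≤ Fintype.card ι := Nat.cast_nonneg _
  have e1 : ∑ i, ((nu + s) * p i) ^ 2 ≤ ∑ i, (2 * (k * q i) ^ 2 + 2) := by
    refine Finset.sum_le_sum fun i _ => ?_
    have h6 := abs_le.1 (hx i)
    nlinarith [sq_nonneg ((nu + s) * p i + k * q i + k * q i),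
      mul_nonneg (by linarith [h6.1] : 0 ≤ (nu + s) * p i + k * q i + 1)
        (by linarith [h6.2] : 0 ≤ 1 - ((nu + s) * p i + k * q i))]
  have e2 : ∑ i, ((nu + s) * p i) ^ 2 = (nu + s) ^ 2 * ∑ i, p i ^ 2 := by
    rw [Finset.mul_sum]; exact Finset.sum_congr rfl fun i _ => by ring
  have e3 : ∑ i : ι, (2 * (k * q i) ^ 2 + 2) = 2 * k ^ 2 * τ + 2 * Fintype.card ι := by
    rw [Finset.sum_add_distrib, hτ, Finset.mul_sum]
    simp only [Finset.sum_const, Finset.card_univ, nsmul_eq_mul]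
    rw [mul_comm (2 : ℝ) (Fintype.card ι : ℝ)]
    congr 1
    exact Finset.sum_congr rfl fun i _ => by ring
  rw [e2, e3] at e1
  have e5 : (nu + s) ^ 2 ≤ 4 * (k ^ 2 * τ) + 4 * Fintype.card ι := by
    have := mul_nonneg (sq_nonneg (nu + s)) (by linarith : 0 ≤ (∑ i, p i ^ 2) - 1 / 2)
    linarith
  have e6 : k ^ 2 * τ ≤ (M * √b) ^ 2 := by
    have hb0 : 0 ≤ b := τ0.trans hb
    rw [mul_pow, Real.sq_sqrt hb0]
    exact mul_le_mul (pow_le_pow_left₀ hk hkM 2) hb τ0 (sq_nonneg _)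
  have a1 : 0 ≤ M * √b := mul_nonneg (hk.trans hkM) (Real.sqrt_nonneg _)
  have e7 : nu ^ 2 ≤ (nu + s) ^ 2 := pow_le_pow_left₀ hnu (by linarith) 2
  have e8 : nu ^ 2 ≤ (2 * (M * √b) + 2 * (Fintype.card ι + 1)) ^ 2 := by
    generalize M * √b = x at *
    generalize (Fintype.card ι : ℝ) = c at *
    have := mul_nonneg a1 a2
    have e9 : (2 * x + 2 * (c + 1)) ^ 2 = 4 * x ^ 2 + 8 * (x * c) + 8 * x + 4 * c ^ 2 + 8 * c + 4 := by
      ring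
    rw [e9]
    have := sq_nonneg c
    linarith
  have a3 : 0 ≤ 2 * (M * √b) + 2 * ((Fintype.card ι : ℝ) + 1) := by linarith
  exact (sq_le_sq₀ hnu a3).1 e8

/-- **The pointwise hypotheses of the tube theorem for `W = Φ(u) + e^u S(|q|)`**, in units of
`E = e^u`. `Φ₀, Φ₁, Φ₂` = value and derivatives of `S` as a function of `|q|²`. -/
theorem tube_pt3 {Φ₀ Φ₁ Φ₂ : ℝ → ℝ} {a b : ℝ} (ha : 0 < a)
    (h0 : ContinuousOn Φ₀ (Icc a b)) (h1 : ContinuousOn Φ₁ (Icc a b))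
    (h2 : ContinuousOn Φ₂ (Icc a b)) (hs : ∀ τ ∈ Icc a b, 0 ≤ Φ₀ τ)
    (hS : ∀ τ ∈ Icc a b, Sc (Fintype.card ι) f (2 * Φ₁ τ) (Φ₀ τ) (√τ * (2 * Φ₁ τ))
      (2 * Φ₁ τ + 4 * Φ₂ τ * τ)) :
    ∃ ρ δ θ c : ℝ, 0 < ρ ∧ 0 < δ ∧ δ < 1 ∧ 0 < θ ∧ θ < 1 ∧ 0 < c ∧
      ∀ (τ nu K : ℝ) (p p' q : ι → ℝ) (P P' : ι → ι → ℝ), τ = ∑ i, q i ^ 2 → τ ∈ Icc a b →
      0 ≤ nu → |K - f * nu| ≤ ρ → |∑ i, p i ^ 2 - 1| ≤ ρ → (∀ i, |p i - p' i| ≤ ρ) →
      (∀ i l, |P i l| ≤ ρ) → (∀ i l, |P' i l| ≤ ρ) →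
      (∀ i, |(nu + Φ₀ τ) * p i + 2 * Φ₁ τ * q i| ≤ ρ) →
      Hyp (Hex nu K (Φ₀ τ) (2 * Φ₁ τ) (4 * Φ₂ τ) p q P) (Mex K (Φ₀ τ) (2 * Φ₁ τ) (4 * Φ₂ τ) p p' q)
        (Gex nu K (Φ₀ τ) (2 * Φ₁ τ) (4 * Φ₂ τ) p' q P') (yex nu (Φ₀ τ) (2 * Φ₁ τ) p' q)
        (kap δ (2 * Φ₁ τ)) (sig K (2 * Φ₁ τ) (Φ₀ τ) (√τ * (2 * Φ₁ τ)) (2 * Φ₁ τ + 4 * Φ₂ τ * τ))
        θ c := by
  set Q : ℝ → ℝ × ℝ × ℝ × ℝ := fun τ => (2 * Φ₁ τ, Φ₀ τ, √τ * (2 * Φ₁ τ), 2 * Φ₁ τ + 4 * Φ₂ τ * τ)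
    with hQ
  have hQc : ContinuousOn Q (Icc a b) := by
    refine ContinuousOn.prodMk (continuousOn_const.mul h1) (ContinuousOn.prodMk h0
      (ContinuousOn.prodMk (ContinuousOn.mul (by fun_prop) (continuousOn_const.mul h1)) ?_))
    exact (continuousOn_const.mul h1).add ((continuousOn_const.mul h2).mul continuousOn_id)
  have hP : IsCompact (Q '' Icc a b) := isCompact_Icc.image_of_continuousOn hQc
  have hSc : ∀ q ∈ Q '' Icc a b, Sc (Fintype.card ι) f q.1 q.2.1 q.2.2.1 q.2.2.2 := by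
    rintro _ ⟨τ, hτ, rfl⟩; exact hS τ hτ
  have hs0 : ∀ q ∈ Q '' Icc a b, 0 ≤ q.2.1 := by
    rintro _ ⟨τ, hτ, rfl⟩; exact hs τ hτ
  obtain ⟨M1, hM1⟩ := isCompact_Icc.exists_bound_of_continuousOn
    (ContinuousOn.mul (continuousOn_const (c := (2 : ℝ))) h1 : ContinuousOn (fun τ => 2 * Φ₁ τ) (Icc a b))
  set N1 : ℝ := 2 * (|M1| * √b) + 2 * (Fintype.card ι + 1) with hN1
  obtain ⟨ρ, δ, θ, c, hρ, d1, d2, d3, d4, d5, H0⟩ := tube_pt2 (ι := ι) hP hSc hs0 N1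
  obtain ⟨ρ', hρ', H1⟩ := close3 (ι := ι) (f := f) hP N1 hρ
  set t := min (min (ρ / 2) (ρ' / 8)) (1 / 8) with ht
  have t0 : 0 < t := by positivity
  have t1 : t ≤ ρ' / 8 := (min_le_left _ _).trans (min_le_right _ _)
  have t2 : t ≤ 1 / 8 := min_le_right _ _
  have t3 : t ≤ ρ / 2 := (min_le_left _ _).trans (min_le_left _ _)
  refine ⟨t, δ, θ, c, t0, d1, d2, d3, d4, d5, ?_⟩
  intro τ nu K p p' q P P' hτ hτm hnu hK hp hpp hPP hPP' hx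
  have τ0 : 0 < τ := lt_of_lt_of_le ha hτm.1
  have hsτ : 0 < √τ := Real.sqrt_pos.2 τ0
  have hsq : √τ ^ 2 = τ := Real.sq_sqrt τ0.le
  obtain ⟨e, he, hpe⟩ := unit_near (t2.trans (by norm_num)) hp
  set h : ι → ℝ := fun i => q i / √τ with hh
  have hh1 : ∑ i, h i ^ 2 = 1 := by
    simp only [hh, div_pow, hsq, ← Finset.sum_div]
    rw [← hτ]; exact div_self τ0.ne'
  have hq : ∀ i, q i = √τ * h i := fun i => by simp only [hh]; field_simp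
  set k := 2 * Φ₁ τ with hk
  set s := Φ₀ τ with hs'
  have hSτ := hS τ hτm
  have hk0 : 0 < k := hSτ.k0
  have hs00 : 0 ≤ s := hs τ hτm
  -- nu is bounded
  have hkM : k ≤ |M1| := by
    have := hM1 τ hτm
    rw [Real.norm_eq_abs] at this
    exact (le_abs_self _).trans (this.trans (le_abs_self _))
  have hnu1 : nu ≤ N1 := nu_bd hτ τ0.le hτm.2 hnu hs00 hk0.le hkM
    (by have := (abs_le.1 hp).1; linarith) fun i => (hx i).trans (t2.trans (by norm_num))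
  -- the point
  let z : Z3 ι := (fun i => p i - e i, fun i => p' i - e i, P, P', K - f * nu)
  have hρt : (0 : ℝ) ≤ 4 * t := by linarith
  have hz : ‖z‖ ≤ 4 * t := by
    refine Prod.norm_def z ▸ max_le ((pi_norm_le_iff_of_nonneg hρt).2 fun i => by
      rw [Real.norm_eq_abs]; exact (hpe i).trans (by linarith)) ?_
    refine Prod.norm_def z.2 ▸ max_le ((pi_norm_le_iff_of_nonneg hρt).2 fun i => by
      rw [Real.norm_eq_abs]
      have a1 := hpe i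
      have a2 := hpp i
      have e1 : z.2.1 i = (p i - e i) - (p i - p' i) := by simp only [z]; ring
      rw [e1]
      exact (abs_sub _ _).trans (by linarith)) ?_
    refine Prod.norm_def z.2.2 ▸ max_le ((pi_norm_le_iff_of_nonneg hρt).2 fun i =>
      (pi_norm_le_iff_of_nonneg hρt).2 fun l => by
        rw [Real.norm_eq_abs]; exact (hPP i l).trans (by linarith)) ?_
    exact Prod.norm_def z.2.2.2 ▸ max_le ((pi_norm_le_iff_of_nonneg hρt).2 fun i =>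
      (pi_norm_le_iff_of_nonneg hρt).2 fun l => by
        rw [Real.norm_eq_abs]; exact (hPP' i l).trans (by linarith))
        (by rw [Real.norm_eq_abs]; exact hK.trans (by linarith))
  let x : Y3 ι := (Q τ, e, h, nu, z)
  have hxK : x ∈ (KY3 (Q '' Icc a b) N1 : Set (Y3 ι)) :=
    ⟨⟨τ, hτm, rfl⟩, he, hh1, ⟨hnu, hnu1⟩, mem_closedBall_zero_iff.2 (hz.trans (by linarith))⟩
  have hw : wY3 x ≤ ρ' := by
    unfold wY3
    have e1 : ‖fun i => (x.2.2.2.1 + x.1.2.1) * (x.2.1 i + x.2.2.2.2.1 i) +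
        x.1.2.2.1 * x.2.2.1 i‖ ≤ t :=
      (pi_norm_le_iff_of_nonneg t0.le).2 fun i => by
        rw [Real.norm_eq_abs]
        have e2 : (x.2.2.2.1 + x.1.2.1) * (x.2.1 i + x.2.2.2.2.1 i) + x.1.2.2.1 * x.2.2.1 i =
            (nu + Φ₀ τ) * p i + 2 * Φ₁ τ * q i := by
          change (nu + Φ₀ τ) * (e i + (p i - e i)) + √τ * (2 * Φ₁ τ) * h i = _
          rw [hq i]; ring
        rw [e2]; exact hx i
    have e2 : ‖x.2.2.2.2‖ ≤ 4 * t := hz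
    linarith
  obtain ⟨a1, a2, a3, a4, a5⟩ := H1 x hxK hw
  have kK : K3 f x = K := by
    change f * nu + (K - f * nu) = K
    ring
  have en : ∀ D : ι → ι → ℝ, ‖D‖ ≤ ρ → ∀ i l, |D i l| ≤ ρ := fun D h i l => by
    rw [← Real.norm_eq_abs]
    exact (norm_le_pi_norm (D i) l).trans ((norm_le_pi_norm D i).trans h)
  have key := H0 (Q τ) ⟨τ, hτm, rfl⟩ e h he hh1 nu K hnu hnu1 (hK.trans (by linarith))
    (fun i => by
      have := (norm_le_pi_norm (ex x) i).trans a5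
      rw [Real.norm_eq_abs] at this
      exact this)
    (Hex nu K s k (4 * Φ₂ τ) p q P) (Mex K s k (4 * Φ₂ τ) p p' q) (Gex nu K s k (4 * Φ₂ τ) p' q P')
    (yex nu s k p' q) (fun i l => ?_) (fun i l => ?_) (fun i l => ?_) (fun i => ?_)
  · exact key
  · have := en _ a1 i l
    have e1 : eH f x i l = Hex nu K s k (4 * Φ₂ τ) p q P i l -
        Hmod K (Q τ).1 (Q τ).2.1 (Q τ).2.2.1 (Q τ).2.2.2 e h i l := by
      unfold eH
      rw [kK]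
      change (K + Φ₀ τ) * ((e i + (p i - e i)) * (e l + (p l - e l))) + (nu + Φ₀ τ) * P i l +
        √τ * (2 * Φ₁ τ) * ((e i + (p i - e i)) * h l + h i * (e l + (p l - e l))) +
        2 * Φ₁ τ * (if i = l then 1 else 0) +
        (2 * Φ₁ τ + 4 * Φ₂ τ * τ - 2 * Φ₁ τ) * (h i * h l) - _ = _
      congr 1
      unfold Hex
      rw [hq i, hq l]
      have : √τ * √τ = τ := Real.mul_self_sqrt τ0.le
      linear_combination (4 * Φ₂ τ * (h i * h l)) * (-this)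
    rwa [e1] at this
  · have := en _ a2 i l
    have e1 : eM f x i l = Mex K s k (4 * Φ₂ τ) p p' q i l -
        Mmod K (Q τ).1 (Q τ).2.1 (Q τ).2.2.1 (Q τ).2.2.2 e h i l := by
      unfold eM
      rw [kK]
      change (K + Φ₀ τ) * ((e i + (p i - e i)) * (e l + (p' l - e l))) -
        √τ * (2 * Φ₁ τ) * ((e i + (p i - e i)) * h l - h i * (e l + (p' l - e l))) -
        2 * Φ₁ τ * (if i = l then 1 else 0) -
        (2 * Φ₁ τ + 4 * Φ₂ τ * τ - 2 * Φ₁ τ) * (h i * h l) - _ = _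
      congr 1
      unfold Mex
      rw [hq i, hq l]
      have : √τ * √τ = τ := Real.mul_self_sqrt τ0.le
      linear_combination (4 * Φ₂ τ * (h i * h l)) * this
    rwa [e1] at this
  · have := en _ a3 i l
    have e1 : eG f x i l = Gex nu K s k (4 * Φ₂ τ) p' q P' i l -
        Gmod K (Q τ).1 (Q τ).2.1 (Q τ).2.2.1 (Q τ).2.2.2 e h i l := by
      unfold eG
      rw [kK]
      change (K + Φ₀ τ) * ((e i + (p' i - e i)) * (e l + (p' l - e l))) + (nu + Φ₀ τ) * P' i l -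
        √τ * (2 * Φ₁ τ) * ((e i + (p' i - e i)) * h l + h i * (e l + (p' l - e l))) +
        2 * Φ₁ τ * (if i = l then 1 else 0) +
        (2 * Φ₁ τ + 4 * Φ₂ τ * τ - 2 * Φ₁ τ) * (h i * h l) - _ = _
      congr 1
      unfold Gex
      rw [hq i, hq l]
      have : √τ * √τ = τ := Real.mul_self_sqrt τ0.le
      linear_combination (4 * Φ₂ τ * (h i * h l)) * (-this)
    rwa [e1] at this
  · have := (norm_le_pi_norm (ey x) i).trans a4
    have e1 : ey x i = yex nu s k p' q i - ymod nu (Q τ).2.1 (Q τ).2.2.1 e h i := by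
      unfold ey
      change (nu + Φ₀ τ) * (e i + (p' i - e i)) - √τ * (2 * Φ₁ τ) * h i - _ = _
      congr 1
      unfold yex
      rw [hq i]; ring
    rwa [e1, Real.norm_eq_abs] at this

end Vale.Agent.P088.R2.H312.T
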