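import Vale.Agent.P088.R2.H312.T.Surf

/-!
# The scalar inequalities: the `cosh` profile and the slow part
-/

open Set Filter Topology

noncomputable section

namespace Vale.Agent.P088.R2.H312.T

/-- Homogeneity. -/
theorem Sc.scale {n f k s s1 s2 E : ℝ} (hE : 0 < E) (h : Sc n f k s s1 s2) :
    Sc n f (E * k) (E * s) (E * s1) (E * s2) := by
  have eA : Aq f (E * s) (E * s1) (E * s2) = E * Aq f s s1 s2 := by unfold Aq; ring
  have eB : Bq f (E * s) (E * s2) (E * s1) = E * Bq f s s2 s1 := by unfold Bq; ring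
  have eC : Cq f (E * s) (E * s1) (E * s2) = E * Cq f s s1 s2 := by unfold Cq; ring
  refine ⟨mul_pos hE h.k0, mul_pos hE h.s10, ?_, ?_, ?_, ?_⟩
  · rw [eC]; exact mul_lt_mul_of_pos_left h.Ck hE
  · rw [eA, eB, eC]
    have := mul_lt_mul_of_pos_left h.h4 (by positivity : 0 < E ^ 2)
    linarith
  · rw [eA, eC]
    have := mul_lt_mul_of_pos_left h.h5a (by positivity : 0 < E ^ 3)
    linarith
  · rw [eA, eB, eC]
    have := mul_lt_mul_of_pos_left h.h5b (by positivity : 0 < E ^ 3)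
    linarith

/-- The inequalities in the letters `d = L - 1`, `x = e L / r`, `k = L / r`. -/
theorem Sc.of_dx {n f d x k : ℝ} (hk : 0 < k) (hd : -1 < d)
    (h1 : k < (d + 2) ^ 2 + f * d - x)
    (h2 : 2 * (f * d - (d ^ 2 + 2 * d) + x) ^ 2 <
      (d ^ 2 + f * d - x) * (k + ((d + 2) ^ 2 + f * d - x)))
    (h3 : 4 * k ^ 3 < (k + ((d + 2) ^ 2 + f * d - x)) *
      ((d ^ 2 + f * d - x) ^ 2 + (n - 1) * k ^ 2))
    (h4 : 4 * ((d ^ 2 + f * d - x) * (f * d - (d ^ 2 + 2 * d) + x) ^ 2) <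
      (k + ((d + 2) ^ 2 + f * d - x)) * ((d ^ 2 + f * d - x) ^ 2 + (n - 1) * k ^ 2)) :
    Sc n f k 1 (d + 1) ((d + 1) ^ 2 - x) := by
  have eA : Aq f 1 (d + 1) ((d + 1) ^ 2 - x) = d ^ 2 + f * d - x := by unfold Aq; ring
  have eB : Bq f 1 ((d + 1) ^ 2 - x) (d + 1) = f * d - (d ^ 2 + 2 * d) + x := by unfold Bq; ring
  have eC : Cq f 1 (d + 1) ((d + 1) ^ 2 - x) = (d + 2) ^ 2 + f * d - x := by unfold Cq; ring
  refine ⟨hk, by linarith, ?_, ?_, ?_, ?_⟩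
  · rw [eC]; exact h1
  · rw [eA, eB, eC]; exact h2
  · rw [eA, eC]; exact h3
  · rw [eA, eB, eC]; exact h4

/-- The three inequalities from `4 B² < C A`. -/
lemma three {n A B C k : ℝ} (hn : 3 ≤ n) (hk : 0 < k) (hk1 : k ≤ 1 / 4) (A0 : 0 < A) (C4 : 4 ≤ C)
    (key : 4 * B ^ 2 < C * A) :
    2 * B ^ 2 < A * (k + C) ∧ 4 * k ^ 3 < (k + C) * (A ^ 2 + (n - 1) * k ^ 2) ∧
      4 * (A * B ^ 2) < (k + C) * (A ^ 2 + (n - 1) * k ^ 2) := by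
  have hAk : 0 < A * k := mul_pos A0 hk
  have hk2 : 0 < k ^ 2 := by positivity
  have hA2 : 0 < A ^ 2 := by positivity
  have hkC : 0 < k + C := by linarith
  have hn2 : 2 * k ^ 2 ≤ (n - 1) * k ^ 2 := mul_le_mul_of_nonneg_right (by linarith) hk2.le
  have hB : 0 ≤ B ^ 2 := sq_nonneg _
  refine ⟨by linarith, ?_, ?_⟩
  · have h1 : k ^ 2 * k ≤ k ^ 2 * (1 / 4) := mul_le_mul_of_nonneg_left hk1 hk2.le
    have h3 : (4 : ℝ) * (2 * k ^ 2) ≤ (k + C) * (A ^ 2 + (n - 1) * k ^ 2) :=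
      mul_le_mul (by linarith) (by linarith) (by positivity) hkC.le
    have h5 : 4 * k ^ 3 = 4 * (k ^ 2 * k) := by ring
    rw [h5]
    linarith
  · have h2 : C * A ^ 2 ≤ (k + C) * (A ^ 2 + (n - 1) * k ^ 2) :=
      mul_le_mul (by linarith) (by linarith) hA2.le hkC.le
    have h3 : 4 * B ^ 2 * A < C * A * A := mul_lt_mul_of_pos_right key A0
    have h5 : C * A * A = C * A ^ 2 := by ring
    linarith

/-! ## The slow part: `k` and `x` small -/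

/-- The cubic. -/
lemma cub {d : ℝ} (d0 : 0 ≤ d) (hd1 : d ≤ 101 / 100) :
    9 / 10 ≤ -3 * d ^ 3 - 3 * d ^ 2 + 357 / 100 * d + 18 / 5 := by
  have h1 : 0 ≤ 101 / 100 - d := by linarith
  have h2 := mul_nonneg d0 h1
  have h3 := mul_nonneg d0 h2
  nlinarith

lemma cub2 {d : ℝ} (d0 : 0 ≤ d) (hd1 : d ≤ 9 / 10) :
    13 / 10 ≤ -3 * d ^ 3 - 3 * d ^ 2 + 357 / 100 * d + 18 / 5 := by
  have h1 : 0 ≤ 9 / 10 - d := by linarith
  have h2 := mul_nonneg d0 h1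
  have h3 := mul_nonneg d0 h2
  nlinarith

lemma slow_key {d x k : ℝ} (d0 : 0 < d) (hk1 : k ≤ 1 / 4)
    (hd1 : d ≤ 101 / 100) (hx : 0 ≤ x) (hxd : x ≤ d / 4) (hx1 : x ≤ k / 40) :
    4 * (d ^ 2 + 11 / 10 * d - x) ^ 2 <
      ((d + 2) ^ 2 + 9 / 10 * d - x) * (d ^ 2 + 9 / 10 * d - x) := by
  have e1 : ((d + 2) ^ 2 + 9 / 10 * d - x) * (d ^ 2 + 9 / 10 * d - x) -
      4 * (d ^ 2 + 11 / 10 * d - x) ^ 2 =
      d * (-3 * d ^ 3 - 3 * d ^ 2 + 357 / 100 * d + 18 / 5) - 4 * x - 3 * x ^ 2 +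
        (6 * (x * d ^ 2) + 3 * (x * d)) := by ring
  have e2 : 0 ≤ 6 * (x * d ^ 2) + 3 * (x * d) := by positivity
  have e3 : 3 * x ^ 2 ≤ x := by
    have : x * x ≤ x * (1 / 3) := mul_le_mul_of_nonneg_left (by linarith) hx
    linarith [sq x]
  rcases le_or_gt d (9 / 10) with h | h
  · have h1 : d * (13 / 10) ≤ d * (-3 * d ^ 3 - 3 * d ^ 2 + 357 / 100 * d + 18 / 5) :=
      mul_le_mul_of_nonneg_left (cub2 d0.le h) d0.le
    linarith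
  · have h1 : d * (9 / 10) ≤ d * (-3 * d ^ 3 - 3 * d ^ 2 + 357 / 100 * d + 18 / 5) :=
      mul_le_mul_of_nonneg_left (cub d0.le hd1) d0.le
    linarith

/-- `f = 9/10`. -/
theorem sc_slow {n d x k : ℝ} (hn : 3 ≤ n) (hk : 0 < k) (hk1 : k ≤ 1 / 4) (hd : k / 10 ≤ d)
    (hd1 : d ≤ 101 / 100) (hx : 0 ≤ x) (hx1 : x ≤ k / 40) :
    Sc n (9 / 10) k 1 (d + 1) ((d + 1) ^ 2 - x) := by
  have d0 : 0 < d := by linarith
  have hxd : x ≤ d / 4 := by linarith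
  have key := slow_key d0 hk1 hd1 hx hxd hx1
  have d2 : 0 < d ^ 2 := by positivity
  obtain ⟨t1, t2, t3⟩ := three hn hk hk1 (A := d ^ 2 + 9 / 10 * d - x) (by linarith)
    (C := (d + 2) ^ 2 + 9 / 10 * d - x) (by nlinarith) key
  have eB : (9 / 10 * d - (d ^ 2 + 2 * d) + x) ^ 2 = (d ^ 2 + 11 / 10 * d - x) ^ 2 := by ring
  refine Sc.of_dx hk (by linarith) (by nlinarith) ?_ t2 ?_
  · rw [eB]; exact t1
  · rw [eB]; exact t3

lemma slow_key2 {d x : ℝ} (d0 : 0 < d) (hd1 : d ≤ 101 / 100) (hx : 0 ≤ x) (hxd : x ≤ d / 4) :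
    4 * (d ^ 2 - x) ^ 2 < ((d + 2) ^ 2 + 2 * d - x) * (d ^ 2 + 2 * d - x) := by
  have e1 : ((d + 2) ^ 2 + 2 * d - x) * (d ^ 2 + 2 * d - x) - 4 * (d ^ 2 - x) ^ 2 =
      d * (8 + 16 * d + 8 * d ^ 2 - 3 * d ^ 3) - 4 * x - 3 * x ^ 2 +
        (6 * (x * d ^ 2) - 8 * (x * d)) := by ring
  have e2 : x * d ≤ d / 4 * d := mul_le_mul_of_nonneg_right hxd d0.le
  have e3 : x ^ 2 ≤ (d / 4) ^ 2 := pow_le_pow_left₀ hx hxd 2
  have e4 : 0 ≤ x * d ^ 2 := by positivity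
  have e5 : d ^ 3 ≤ d ^ 2 * (101 / 100) := by
    have := mul_le_mul_of_nonneg_left hd1 (sq_nonneg d)
    linarith [show d ^ 3 = d ^ 2 * d by ring]
  have e6 : 0 ≤ d * (d ^ 2 * (101 / 100) - d ^ 3) := mul_nonneg d0.le (by linarith)
  have d2 : 0 < d ^ 2 := by positivity
  have d3 : 0 < d ^ 3 := by positivity
  have e7 : d * (8 + 16 * d + 8 * d ^ 2 - 3 * d ^ 3) = 8 * d + 16 * d ^ 2 + 8 * d ^ 3 -
    3 * d ^ 4 := by ring
  have e8 : d * (d ^ 2 * (101 / 100) - d ^ 3) = 101 / 100 * d ^ 3 - d ^ 4 := by ring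
  linarith

/-- `f = 2`. -/
theorem sc_slow2 {n d x k : ℝ} (hn : 3 ≤ n) (hk : 0 < k) (hk1 : k ≤ 1 / 4) (hd : k / 10 ≤ d)
    (hd1 : d ≤ 101 / 100) (hx : 0 ≤ x) (hx1 : x ≤ k / 40) :
    Sc n 2 k 1 (d + 1) ((d + 1) ^ 2 - x) := by
  have d0 : 0 < d := by linarith
  have hxd : x ≤ d / 4 := by linarith
  have key := slow_key2 d0 hd1 hx hxd
  have d2 : 0 < d ^ 2 := by positivity
  obtain ⟨t1, t2, t3⟩ := three hn hk hk1 (A := d ^ 2 + 2 * d - x) (by linarith)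
    (C := (d + 2) ^ 2 + 2 * d - x) (by nlinarith) key
  have eB : (2 * d - (d ^ 2 + 2 * d) + x) ^ 2 = (d ^ 2 - x) ^ 2 := by ring
  refine Sc.of_dx hk (by linarith) (by nlinarith) ?_ t2 ?_
  · rw [eB]; exact t1
  · rw [eB]; exact t3

end Vale.Agent.P088.R2.H312.T
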