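import Vale.Agent.P088.R2.H312.T.ScA
import Vale.Agent.P088.R2.H644.W.Prof2

/-!
# The scalar inequalities for `S = sinh² r / …` (`L = 2 coth r`)
-/

open Set Filter Topology

noncomputable section

namespace Vale.Agent.P088.R2.H312.T

/-- `sinh r ≤ r cosh r`. -/
lemma sinh_le_mul_cosh {r : ℝ} (hr : 0 ≤ r) : Real.sinh r ≤ r * Real.cosh r := by
  have hd : ∀ x : ℝ, HasDerivAt (fun x => x * Real.cosh x - Real.sinh x) (x * Real.sinh x) x := by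
    intro x
    have := ((hasDerivAt_id x).mul (Real.hasDerivAt_cosh x)).sub (Real.hasDerivAt_sinh x)
    refine this.congr_deriv ?_
    simp only [id]
    ring
  have hm : MonotoneOn (fun x => x * Real.cosh x - Real.sinh x) (Ici (0 : ℝ)) := by
    refine monotoneOn_of_deriv_nonneg (convex_Ici 0)
      (fun x _ => (hd x).continuousAt.continuousWithinAt)
      (fun x _ => (hd x).differentiableAt.differentiableWithinAt) fun x hx => ?_
    rw [interior_Ici] at hx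
    rw [(hd x).deriv]
    have hx' : 0 < x := hx
    exact mul_nonneg hx'.le (Real.sinh_nonneg_iff.2 hx'.le)
  have := hm (mem_Ici.2 le_rfl) (mem_Ici.2 hr) hr
  simp only [Real.cosh_zero, Real.sinh_zero, zero_mul, sub_zero] at this
  linarith

/-- `r cosh r ≤ sinh r (1 + r²/3)`. -/
lemma mul_cosh_le {r : ℝ} (hr : 0 ≤ r) :
    r * Real.cosh r ≤ Real.sinh r * (1 + r ^ 2 / 3) := by
  have hd : ∀ x : ℝ, HasDerivAt (fun x => Real.sinh x * (1 + x ^ 2 / 3) - x * Real.cosh x)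
      (x / 3 * (x * Real.cosh x - Real.sinh x)) x := by
    intro x
    have h1 : HasDerivAt (fun x : ℝ => 1 + x ^ 2 / 3) (2 * x / 3) x := by
      have := ((hasDerivAt_pow 2 x).div_const 3).const_add 1
      simpa using this
    have := ((Real.hasDerivAt_sinh x).mul h1).sub
      ((hasDerivAt_id x).mul (Real.hasDerivAt_cosh x))
    refine this.congr_deriv ?_
    simp only [id]
    ring
  have hm : MonotoneOn (fun x => Real.sinh x * (1 + x ^ 2 / 3) - x * Real.cosh x)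
      (Ici (0 : ℝ)) := by
    refine monotoneOn_of_deriv_nonneg (convex_Ici 0)
      (fun x _ => (hd x).continuousAt.continuousWithinAt)
      (fun x _ => (hd x).differentiableAt.differentiableWithinAt) fun x hx => ?_
    rw [interior_Ici] at hx
    rw [(hd x).deriv]
    have hx' : 0 < x := hx
    exact mul_nonneg (by positivity) (by linarith [sinh_le_mul_cosh hx'.le])
  have := hm (mem_Ici.2 le_rfl) (mem_Ici.2 hr) hr
  simp only [Real.cosh_zero, Real.sinh_zero, zero_mul, mul_one] at this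
  linarith

/-- `c = coth r` and its bounds. -/
lemma coth_facts {r : ℝ} (hr : 0 < r) :
    ∃ c : ℝ, 1 < c ∧ H644.Lz 2 r = 2 * c ∧ H644.ez 2 r * c = r * (c ^ 2 - 1) ∧
      1 ≤ r * c ∧ (r ≤ 6 / 5 → r * c ≤ 37 / 25 ∧ c * (r * c - 1) ≤ r / 2) ∧
      (6 / 5 ≤ r → c ≤ 241 / 200) := by
  have hs : 0 < Real.sinh r := Real.sinh_pos_iff.2 hr
  have hc : 0 < Real.cosh r := Real.cosh_pos r
  have hq : Real.cosh r ^ 2 = Real.sinh r ^ 2 + 1 := Real.cosh_sq r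
  set S := Real.sinh r with hS
  set C := Real.cosh r with hC
  have h2 : 2 * r / 2 = r := by ring
  have hcs : C / S * S = C := div_mul_cancel₀ _ hs.ne'
  have hc1 : 1 < C / S := by rw [one_lt_div hs]; exact Real.sinh_lt_cosh r
  have hc2 : (C / S) ^ 2 * S ^ 2 = S ^ 2 + 1 := by
    rw [← mul_pow, hcs]; exact hq
  have g1 := sinh_le_mul_cosh hr.le
  have g2 := mul_cosh_le hr.le
  rw [← hS, ← hC] at g1 g2
  have f1 : 1 ≤ r * (C / S) := by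
    rw [← mul_div_assoc, le_div_iff₀ hs]; linarith
  have f2 : r * (C / S) ≤ 1 + r ^ 2 / 3 := by
    rw [← mul_div_assoc, div_le_iff₀ hs]; linarith
  refine ⟨C / S, hc1, ?_, ?_, f1, fun h => ?_, fun h => ?_⟩
  · unfold H644.Lz
    rw [h2, ← hS, ← hC]
    ring
  · unfold H644.ez
    have : Real.sinh (2 * r) = 2 * S * C := Real.sinh_two_mul r
    rw [this]
    have e1 : (C / S) ^ 2 - 1 = 1 / S ^ 2 := by
      rw [div_pow, eq_div_iff (by positivity), sub_mul, div_mul_cancel₀ _ (by positivity)]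
      linarith
    rw [e1]
    field_simp
  · have r2 : r ^ 2 ≤ 36 / 25 := by nlinarith
    have h3 : r * (C / S) ≤ 37 / 25 := by linarith
    refine ⟨h3, ?_⟩
    have h4 : C / S * (r * (C / S) - 1) ≤ C / S * (r ^ 2 / 3) :=
      mul_le_mul_of_nonneg_left (by linarith) (by linarith)
    have h5 : C / S * (r ^ 2 / 3) = r * (r * (C / S)) / 3 := by ring
    have h6 : r * (r * (C / S)) ≤ r * (37 / 25) := mul_le_mul_of_nonneg_left h3 hr.le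
    linarith
  · have h3 : H644.ez 1 r ≤ 6 / (6 + (1 * r) ^ 2) := H644.ez_le one_pos hr
    unfold H644.ez at h3
    rw [one_mul, ← hS, div_le_div_iff₀ hs (by positivity)] at h3
    have h4 : (186 : ℝ) / 125 ≤ S := by nlinarith
    have h5 : (C / S) ^ 2 * S ^ 2 = S ^ 2 + 1 := hc2
    by_contra hlt
    push Not at hlt
    have h6 : (241 / 200 : ℝ) ^ 2 < (C / S) ^ 2 := by
      apply pow_lt_pow_left₀ hlt (by norm_num) (by norm_num)
    have h7 : (186 / 125 : ℝ) ^ 2 ≤ S ^ 2 := pow_le_pow_left₀ (by norm_num) h4 2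
    nlinarith

/-! ## The inequalities -/

/-- For `r` large. -/
lemma big_r {n A B C k : ℝ} (hn : 3 ≤ n) (hk : 0 < k) (A0 : 0 < A) (hkC : k < C)
    (key : 4 * B ^ 2 < C * A) :
    2 * B ^ 2 < A * (k + C) ∧ 4 * k ^ 3 < (k + C) * (A ^ 2 + (n - 1) * k ^ 2) ∧
      4 * (A * B ^ 2) < (k + C) * (A ^ 2 + (n - 1) * k ^ 2) := by
  have hAk : 0 < A * k := mul_pos A0 hk
  have hk2 : 0 < k ^ 2 := by positivity
  have hA2 : 0 < A ^ 2 := by positivity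
  have hkC' : 0 < k + C := by linarith
  have hn2 : 2 * k ^ 2 ≤ (n - 1) * k ^ 2 := mul_le_mul_of_nonneg_right (by linarith) hk2.le
  have hB : 0 ≤ B ^ 2 := sq_nonneg _
  refine ⟨by linarith, ?_, ?_⟩
  · have h3 : (2 * k) * (2 * k ^ 2) < (k + C) * (2 * k ^ 2) :=
      mul_lt_mul_of_pos_right (by linarith) (by linarith)
    have h4 : (k + C) * (2 * k ^ 2) ≤ (k + C) * (A ^ 2 + (n - 1) * k ^ 2) :=
      mul_le_mul_of_nonneg_left (by linarith) hkC'.le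
    linarith [show (2 * k) * (2 * k ^ 2) = 4 * k ^ 3 by ring]
  · have h2 : C * A ^ 2 ≤ (k + C) * (A ^ 2 + (n - 1) * k ^ 2) :=
      mul_le_mul (by linarith) (by linarith) hA2.le hkC'.le
    have h3 : 4 * B ^ 2 * A < C * A * A := mul_lt_mul_of_pos_right key A0
    have h5 : C * A * A = C * A ^ 2 := by ring
    linarith

/-- For `r` small. -/
lemma small_r {n A B C k k1 : ℝ} (hn : 3 ≤ n) (hk1 : 0 < k1) (hk : k1 ≤ k) (A0 : 0 < A)
    (hkC : k < C) (key : 2 * B ^ 2 < A * (k1 + C))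
    (key2 : 4 * (A * B ^ 2) < (k1 + C) * (A ^ 2 + 2 * k1 ^ 2)) :
    2 * B ^ 2 < A * (k + C) ∧ 4 * k ^ 3 < (k + C) * (A ^ 2 + (n - 1) * k ^ 2) ∧
      4 * (A * B ^ 2) < (k + C) * (A ^ 2 + (n - 1) * k ^ 2) := by
  have k0 : 0 < k := lt_of_lt_of_le hk1 hk
  have hk2 : 0 < k ^ 2 := by positivity
  have hA2 : 0 < A ^ 2 := by positivity
  have hkC' : 0 < k + C := by linarith
  have hn2 : 2 * k ^ 2 ≤ (n - 1) * k ^ 2 := mul_le_mul_of_nonneg_right (by linarith) hk2.le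
  have hk12 : k1 ^ 2 ≤ k ^ 2 := pow_le_pow_left₀ hk1.le hk 2
  refine ⟨?_, ?_, ?_⟩
  · have : A * (k1 + C) ≤ A * (k + C) := mul_le_mul_of_nonneg_left (by linarith) A0.le
    linarith
  · have h3 : (2 * k) * (2 * k ^ 2) < (k + C) * (2 * k ^ 2) :=
      mul_lt_mul_of_pos_right (by linarith) (by linarith)
    have h4 : (k + C) * (2 * k ^ 2) ≤ (k + C) * (A ^ 2 + (n - 1) * k ^ 2) :=
      mul_le_mul_of_nonneg_left (by linarith) hkC'.le
    linarith [show (2 * k) * (2 * k ^ 2) = 4 * k ^ 3 by ring]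
  · have h2 : (k1 + C) * (A ^ 2 + 2 * k1 ^ 2) ≤ (k + C) * (A ^ 2 + (n - 1) * k ^ 2) :=
      mul_le_mul (by linarith) (by linarith) (by positivity) hkC'.le
    linarith

/-- `f = 9/10`. -/
theorem sc_coth {n r c : ℝ} (hn : 3 ≤ n) (hr : 0 < r) (hc : 1 < c) (h1 : 1 ≤ r * c)
    (hs : r ≤ 6 / 5 → r * c ≤ 37 / 25 ∧ c * (r * c - 1) ≤ r / 2)
    (hb : 6 / 5 ≤ r → c ≤ 241 / 200) :
    Sc n (9 / 10) (2 * c / r) 1 (2 * c - 1 + 1) ((2 * c - 1 + 1) ^ 2 - 2 * (c ^ 2 - 1)) := by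
  have hk : 0 < 2 * c / r := by positivity
  have hk2 : 2 * c / r ≤ 2 * c ^ 2 := by
    rw [div_le_iff₀ hr]; nlinarith
  obtain ⟨t, ht, rfl⟩ : ∃ t, 0 < t ∧ c = 1 + t := ⟨c - 1, by linarith, by ring⟩
  set k := 2 * (1 + t) / r with hkd
  have eA : (2 * (1 + t) - 1) ^ 2 + 9 / 10 * (2 * (1 + t) - 1) - 2 * ((1 + t) ^ 2 - 1) =
      2 * t ^ 2 + 9 / 5 * t + 19 / 10 := by ring
  have eB : 9 / 10 * (2 * (1 + t) - 1) - ((2 * (1 + t) - 1) ^ 2 + 2 * (2 * (1 + t) - 1)) +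
      2 * ((1 + t) ^ 2 - 1) = -(2 * t ^ 2 + 11 / 5 * t + 21 / 10) := by ring
  have eC : (2 * (1 + t) - 1 + 2) ^ 2 + 9 / 10 * (2 * (1 + t) - 1) - 2 * ((1 + t) ^ 2 - 1) =
      2 * t ^ 2 + 49 / 5 * t + 99 / 10 := by ring
  have A0 : 0 < 2 * t ^ 2 + 9 / 5 * t + 19 / 10 := by positivity
  have hkC : k < 2 * t ^ 2 + 49 / 5 * t + 99 / 10 := by nlinarith
  suffices H : 2 * (-(2 * t ^ 2 + 11 / 5 * t + 21 / 10)) ^ 2 <
      (2 * t ^ 2 + 9 / 5 * t + 19 / 10) * (k + (2 * t ^ 2 + 49 / 5 * t + 99 / 10)) ∧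
      4 * k ^ 3 < (k + (2 * t ^ 2 + 49 / 5 * t + 99 / 10)) *
        ((2 * t ^ 2 + 9 / 5 * t + 19 / 10) ^ 2 + (n - 1) * k ^ 2) ∧
      4 * ((2 * t ^ 2 + 9 / 5 * t + 19 / 10) * (-(2 * t ^ 2 + 11 / 5 * t + 21 / 10)) ^ 2) <
        (k + (2 * t ^ 2 + 49 / 5 * t + 99 / 10)) *
        ((2 * t ^ 2 + 9 / 5 * t + 19 / 10) ^ 2 + (n - 1) * k ^ 2) by
    refine Sc.of_dx hk (by linarith) ?_ ?_ ?_ ?_
    · rw [eC]; exact hkC
    · rw [eA, eB, eC]; exact H.1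
    · rw [eA, eC]; exact H.2.1
    · rw [eA, eB, eC]; exact H.2.2
  rcases le_or_gt r (6 / 5) with hr1 | hr1
  · obtain ⟨_, hs2⟩ := hs hr1
    have hk1 : 2 * (1 + t) ^ 2 - 1 ≤ k := by
      rw [hkd, le_div_iff₀ hr]; nlinarith
    refine small_r hn (k1 := 2 * (1 + t) ^ 2 - 1) (by nlinarith) hk1 A0 hkC ?_ ?_
    · have e : (2 * t ^ 2 + 9 / 5 * t + 19 / 10) *
          (2 * (1 + t) ^ 2 - 1 + (2 * t ^ 2 + 49 / 5 * t + 99 / 10)) -
          2 * (-(2 * t ^ 2 + 11 / 5 * t + 21 / 10)) ^ 2 =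
          1189 / 100 + 684 / 25 * t + 694 / 25 * t ^ 2 + 86 / 5 * t ^ 3 := by ring
      have : 0 < 1189 / 100 + 684 / 25 * t + 694 / 25 * t ^ 2 + 86 / 5 * t ^ 3 := by positivity
      linarith
    · have e : (2 * (1 + t) ^ 2 - 1 + (2 * t ^ 2 + 49 / 5 * t + 99 / 10)) *
          ((2 * t ^ 2 + 9 / 5 * t + 19 / 10) ^ 2 + 2 * (2 * (1 + t) ^ 2 - 1) ^ 2) -
          4 * ((2 * t ^ 2 + 9 / 5 * t + 19 / 10) * (-(2 * t ^ 2 + 11 / 5 * t + 21 / 10)) ^ 2) =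
          27633 / 1000 + 224398 / 1000 * t + 689356 / 1000 * t ^ 2 + 984104 / 1000 * t ^ 3 +
          67544 / 100 * t ^ 4 + 1116 / 5 * t ^ 5 + 16 * t ^ 6 := by ring
      have : 0 < 27633 / 1000 + 224398 / 1000 * t + 689356 / 1000 * t ^ 2 +
        984104 / 1000 * t ^ 3 + 67544 / 100 * t ^ 4 + 1116 / 5 * t ^ 5 + 16 * t ^ 6 := by positivity
      linarith
  · have ht1 : t ≤ 41 / 200 := by linarith [hb hr1.le]
    refine big_r hn hk A0 hkC ?_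
    have e : (2 * t ^ 2 + 49 / 5 * t + 99 / 10) * (2 * t ^ 2 + 9 / 5 * t + 19 / 10) -
        4 * (-(2 * t ^ 2 + 11 / 5 * t + 21 / 10)) ^ 2 =
        117 / 100 - 13 / 25 * t - 293 / 25 * t ^ 2 - 12 * t ^ 3 - 12 * t ^ 4 := by ring
    have g2 : t ^ 2 ≤ (41 / 200) ^ 2 := pow_le_pow_left₀ ht.le ht1 2
    have g3 : t ^ 3 ≤ (41 / 200) ^ 3 := pow_le_pow_left₀ ht.le ht1 3
    have g4 : t ^ 4 ≤ (41 / 200) ^ 4 := pow_le_pow_left₀ ht.le ht1 4
    norm_num at g2 g3 g4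
    linarith

/-- `f = 2`. -/
theorem sc_coth2 {n r c : ℝ} (hn : 3 ≤ n) (hr : 0 < r) (hc : 1 < c) (h1 : 1 ≤ r * c)
    (hs : r ≤ 6 / 5 → r * c ≤ 37 / 25 ∧ c * (r * c - 1) ≤ r / 2)
    (hb : 6 / 5 ≤ r → c ≤ 241 / 200) :
    Sc n 2 (2 * c / r) 1 (2 * c - 1 + 1) ((2 * c - 1 + 1) ^ 2 - 2 * (c ^ 2 - 1)) := by
  have hk : 0 < 2 * c / r := by positivity
  have hk2 : 2 * c / r ≤ 2 * c ^ 2 := by
    rw [div_le_iff₀ hr]; nlinarith
  obtain ⟨t, ht, rfl⟩ : ∃ t, 0 < t ∧ c = 1 + t := ⟨c - 1, by linarith, by ring⟩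
  set k := 2 * (1 + t) / r with hkd
  have eA : (2 * (1 + t) - 1) ^ 2 + 2 * (2 * (1 + t) - 1) - 2 * ((1 + t) ^ 2 - 1) =
      2 * t ^ 2 + 4 * t + 3 := by ring
  have eB : 2 * (2 * (1 + t) - 1) - ((2 * (1 + t) - 1) ^ 2 + 2 * (2 * (1 + t) - 1)) +
      2 * ((1 + t) ^ 2 - 1) = -(2 * t ^ 2 + 1) := by ring
  have eC : (2 * (1 + t) - 1 + 2) ^ 2 + 2 * (2 * (1 + t) - 1) - 2 * ((1 + t) ^ 2 - 1) =
      2 * t ^ 2 + 12 * t + 11 := by ring
  have A0 : 0 < 2 * t ^ 2 + 4 * t + 3 := by positivity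
  have hkC : k < 2 * t ^ 2 + 12 * t + 11 := by nlinarith
  suffices H : 2 * (-(2 * t ^ 2 + 1)) ^ 2 <
      (2 * t ^ 2 + 4 * t + 3) * (k + (2 * t ^ 2 + 12 * t + 11)) ∧
      4 * k ^ 3 < (k + (2 * t ^ 2 + 12 * t + 11)) *
        ((2 * t ^ 2 + 4 * t + 3) ^ 2 + (n - 1) * k ^ 2) ∧
      4 * ((2 * t ^ 2 + 4 * t + 3) * (-(2 * t ^ 2 + 1)) ^ 2) <
        (k + (2 * t ^ 2 + 12 * t + 11)) *
        ((2 * t ^ 2 + 4 * t + 3) ^ 2 + (n - 1) * k ^ 2) by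
    refine Sc.of_dx hk (by linarith) ?_ ?_ ?_ ?_
    · rw [eC]; exact hkC
    · rw [eA, eB, eC]; exact H.1
    · rw [eA, eC]; exact H.2.1
    · rw [eA, eB, eC]; exact H.2.2
  rcases le_or_gt r (6 / 5) with hr1 | hr1
  · obtain ⟨_, hs2⟩ := hs hr1
    have hk1 : 2 * (1 + t) ^ 2 - 1 ≤ k := by
      rw [hkd, le_div_iff₀ hr]; nlinarith
    refine small_r hn (k1 := 2 * (1 + t) ^ 2 - 1) (by nlinarith) hk1 A0 hkC ?_ ?_
    · have e : (2 * t ^ 2 + 4 * t + 3) *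
          (2 * (1 + t) ^ 2 - 1 + (2 * t ^ 2 + 12 * t + 11)) -
          2 * (-(2 * t ^ 2 + 1)) ^ 2 =
          34 + 96 * t + 92 * t ^ 2 + 48 * t ^ 3 := by ring
      have : 0 < 34 + 96 * t + 92 * t ^ 2 + 48 * t ^ 3 := by positivity
      linarith
    · have e : (2 * (1 + t) ^ 2 - 1 + (2 * t ^ 2 + 12 * t + 11)) *
          ((2 * t ^ 2 + 4 * t + 3) ^ 2 + 2 * (2 * (1 + t) ^ 2 - 1) ^ 2) -
          4 * ((2 * t ^ 2 + 4 * t + 3) * (-(2 * t ^ 2 + 1)) ^ 2) =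
          120 + 640 * t + 1444 * t ^ 2 + 1760 * t ^ 3 + 1104 * t ^ 4 + 320 * t ^ 5 +
          16 * t ^ 6 := by ring
      have : 0 < 120 + 640 * t + 1444 * t ^ 2 + 1760 * t ^ 3 + 1104 * t ^ 4 + 320 * t ^ 5 +
          16 * t ^ 6 := by positivity
      linarith
  · have ht1 : t ≤ 41 / 200 := by linarith [hb hr1.le]
    refine big_r hn hk A0 hkC ?_
    have g2 : t ^ 2 ≤ (41 / 200) ^ 2 := pow_le_pow_left₀ ht.le ht1 2
    have g4 : t ^ 4 ≤ (41 / 200) ^ 4 := pow_le_pow_left₀ ht.le ht1 4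
    have e : (2 * t ^ 2 + 12 * t + 11) * (2 * t ^ 2 + 4 * t + 3) -
        4 * (-(2 * t ^ 2 + 1)) ^ 2 =
        29 + 80 * t + 60 * t ^ 2 + 32 * t ^ 3 - 12 * t ^ 4 := by ring
    have g5 : 0 < 80 * t + 60 * t ^ 2 + 32 * t ^ 3 := by positivity
    norm_num at g4
    linarith

end Vale.Agent.P088.R2.H312.T
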