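import Vale.Agent.P088.R2.H312.T.ScB
import Vale.Agent.P088.R2.H312.T.Pt3

/-!
# The tube hypotheses for the slow profile
-/

open Set Filter Topology
open scoped ContDiff
open Vale.Agent.P088.R2.H644 (IsProf Lz ez)

noncomputable section

namespace Vale.Agent.P088.R2.H312.T

/-- `L ≤ 2.01` for `r ≥ 10`. -/
lemma Lz_far {r : ℝ} (hr : 10 ≤ r) : Lz 2 r ≤ 201 / 100 := by
  have h0 : 0 < r := by linarith
  obtain ⟨c, hc, h1, h2, h3, _, _⟩ := coth_facts h0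
  have h4 : ez 2 r ≤ 6 / (6 + (2 * r) ^ 2) := H644.ez_le two_pos h0
  have h5 : (0 : ℝ) < 6 + (2 * r) ^ 2 := by positivity
  rw [le_div_iff₀ h5] at h4
  have h6 : ez 2 r * c * (6 + (2 * r) ^ 2) ≤ 6 * c := by
    have := mul_le_mul_of_nonneg_right h4 (by linarith : (0 : ℝ) ≤ c)
    linarith [show ez 2 r * c * (6 + (2 * r) ^ 2) = ez 2 r * (6 + (2 * r) ^ 2) * c by ring]
  rw [h2] at h6
  rw [h1]
  by_contra hlt
  push Not at hlt
  have h7 : 201 / 200 < c := by linarith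
  -- `r (c² - 1)(6 + 4 r²) ≤ 6 c`
  have h8 : c / 200 ≤ c ^ 2 - 1 := by nlinarith
  have h9 : (10 : ℝ) * (c / 200) ≤ r * (c ^ 2 - 1) := mul_le_mul hr h8 (by positivity) h0.le
  have h10 : (400 : ℝ) ≤ 6 + (2 * r) ^ 2 := by nlinarith
  have h11 : (10 : ℝ) * (c / 200) * 400 ≤ r * (c ^ 2 - 1) * (6 + (2 * r) ^ 2) :=
    mul_le_mul h9 h10 (by norm_num) (by nlinarith)
  linarith

section prof

variable {Li ε r₁ R₁ n r : ℝ} {Φ Φ₁ Φ₂ L e : ℝ → ℝ}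

lemma prof_letters (h : IsProf 2 Li ε r₁ R₁ Φ Φ₁ Φ₂ L e) (hr : 0 < r) :
    2 * Φ₁ (r ^ 2) = Φ (r ^ 2) * (L r / r) ∧
      √(r ^ 2) * (2 * Φ₁ (r ^ 2)) = Φ (r ^ 2) * (L r - 1 + 1) ∧
      2 * Φ₁ (r ^ 2) + 4 * Φ₂ (r ^ 2) * r ^ 2 =
        Φ (r ^ 2) * ((L r - 1 + 1) ^ 2 - e r * (L r / r)) := by
  have h1 := h.one r hr
  have h2 := h.two r hr
  have h3 : √(r ^ 2) = r := Real.sqrt_sq hr.le
  have h4 : 2 * Φ₁ (r ^ 2) = Φ (r ^ 2) * (L r / r) := by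
    field_simp
    linarith
  refine ⟨h4, ?_, ?_⟩
  · rw [h3]; linarith
  · rw [h4, show 4 * Φ₂ (r ^ 2) * r ^ 2 = 4 * r ^ 2 * Φ₂ (r ^ 2) by ring, h2]
    field_simp
    ring

/-- The scalar inequalities for the profile, `f = 9/10`. -/
theorem sc_prof (h : IsProf 2 Li ε r₁ R₁ Φ Φ₁ Φ₂ L e) (hε : ε ≤ 1 / 100) (hr1 : 10 ≤ r₁)
    (hn : 3 ≤ n) (hr : 0 < r) (hcase : r ≤ r₁ ∨ L r / r / 10 ≤ L r - 1) :
    Sc n (9 / 10) (2 * Φ₁ (r ^ 2)) (Φ (r ^ 2)) (√(r ^ 2) * (2 * Φ₁ (r ^ 2)))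
      (2 * Φ₁ (r ^ 2) + 4 * Φ₂ (r ^ 2) * r ^ 2) := by
  obtain ⟨a1, a2, a3⟩ := prof_letters h hr
  have hΦ := h.pos (r ^ 2) (by positivity)
  have hL : 0 < L r := h.Li_pos.trans_le (h.Li_le r)
  suffices H : Sc n (9 / 10) (L r / r) 1 (L r - 1 + 1) ((L r - 1 + 1) ^ 2 - e r * (L r / r)) by
    have := H.scale hΦ
    rw [a3, a2, a1]
    rwa [mul_one] at this
  rcases le_or_gt r r₁ with h1 | h1
  · obtain ⟨c, hc, c1, c2, c3, c4, c5⟩ := coth_facts hr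
    have hLc : L r = 2 * c := (h.L_near r hr h1).trans c1
    have hx : e r * (L r / r) = 2 * (c ^ 2 - 1) := by
      rw [h.e_near r hr h1, hLc]
      have : ez 2 r * (2 * c / r) = 2 * (ez 2 r * c) / r := by ring
      rw [this, c2]
      field_simp
    rw [hx, hLc]
    exact sc_coth hn hr hc c3 c4 c5
  · have hr10 : 10 < r := by linarith
    have hd : L r / r / 10 ≤ L r - 1 := by
      rcases hcase with h2 | h2
      · exact absurd h1 (not_lt.2 h2)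
      · exact h2
    have hLf := (h.L_le r hr).trans (Lz_far hr10.le)
    have hk : L r / r ≤ 1 / 4 := by
      rw [div_le_iff₀ hr]; linarith
    have he : e r ≤ 1 / 40 := by
      have b1 := h.e_le r hr
      have b2 : ez 2 r ≤ 6 / (6 + (2 * r) ^ 2) := H644.ez_le two_pos hr
      have b3 : 6 / (6 + (2 * r) ^ 2) ≤ 3 / 200 := by
        rw [div_le_div_iff₀ (by positivity) (by norm_num)]; nlinarith
      linarith
    have hk0 : 0 < L r / r := div_pos hL hr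
    have hx : e r * (L r / r) ≤ L r / r / 40 := by
      have := mul_le_mul_of_nonneg_right he hk0.le
      linarith
    exact sc_slow hn hk0 hk hd (by linarith) (mul_nonneg (h.e_nonneg r hr) hk0.le) hx

/-- The scalar inequalities for the profile, `f = 2`. -/
theorem sc_prof2 (h : IsProf 2 Li ε r₁ R₁ Φ Φ₁ Φ₂ L e) (hε : ε ≤ 1 / 100) (hr1 : 10 ≤ r₁)
    (hn : 3 ≤ n) (hr : 0 < r) (hcase : r ≤ r₁ ∨ L r / r / 10 ≤ L r - 1) :
    Sc n 2 (2 * Φ₁ (r ^ 2)) (Φ (r ^ 2)) (√(r ^ 2) * (2 * Φ₁ (r ^ 2)))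
      (2 * Φ₁ (r ^ 2) + 4 * Φ₂ (r ^ 2) * r ^ 2) := by
  obtain ⟨a1, a2, a3⟩ := prof_letters h hr
  have hΦ := h.pos (r ^ 2) (by positivity)
  have hL : 0 < L r := h.Li_pos.trans_le (h.Li_le r)
  suffices H : Sc n 2 (L r / r) 1 (L r - 1 + 1) ((L r - 1 + 1) ^ 2 - e r * (L r / r)) by
    have := H.scale hΦ
    rw [a3, a2, a1]
    rwa [mul_one] at this
  rcases le_or_gt r r₁ with h1 | h1
  · obtain ⟨c, hc, c1, c2, c3, c4, c5⟩ := coth_facts hr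
    have hLc : L r = 2 * c := (h.L_near r hr h1).trans c1
    have hx : e r * (L r / r) = 2 * (c ^ 2 - 1) := by
      rw [h.e_near r hr h1, hLc]
      have : ez 2 r * (2 * c / r) = 2 * (ez 2 r * c) / r := by ring
      rw [this, c2]
      field_simp
    rw [hx, hLc]
    exact sc_coth2 hn hr hc c3 c4 c5
  · have hr10 : 10 < r := by linarith
    have hd : L r / r / 10 ≤ L r - 1 := by
      rcases hcase with h2 | h2
      · exact absurd h1 (not_lt.2 h2)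
      · exact h2
    have hLf := (h.L_le r hr).trans (Lz_far hr10.le)
    have hk : L r / r ≤ 1 / 4 := by
      rw [div_le_iff₀ hr]; linarith
    have he : e r ≤ 1 / 40 := by
      have b1 := h.e_le r hr
      have b2 : ez 2 r ≤ 6 / (6 + (2 * r) ^ 2) := H644.ez_le two_pos hr
      have b3 : 6 / (6 + (2 * r) ^ 2) ≤ 3 / 200 := by
        rw [div_le_div_iff₀ (by positivity) (by norm_num)]; nlinarith
      linarith
    have hk0 : 0 < L r / r := div_pos hL hr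
    have hx : e r * (L r / r) ≤ L r / r / 40 := by
      have := mul_le_mul_of_nonneg_right he hk0.le
      linarith
    exact sc_slow2 hn hk0 hk hd (by linarith) (mul_nonneg (h.e_nonneg r hr) hk0.le) hx

lemma prof_cont (h : IsProf 2 Li ε r₁ R₁ Φ Φ₁ Φ₂ L e) :
    Continuous Φ ∧ Continuous Φ₁ ∧ Continuous Φ₂ := by
  have e1 : Φ₁ = deriv Φ := funext fun s => (h.d2.d1 s).deriv.symm
  have e2 : Φ₂ = deriv Φ₁ := funext fun s => (h.d2.d2 s).deriv.symm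
  have c1 : ContDiff ℝ ∞ (deriv Φ) := (contDiff_infty_iff_deriv.1 h.sm).2
  have c2 : ContDiff ℝ ∞ (deriv (deriv Φ)) := (contDiff_infty_iff_deriv.1 c1).2
  refine ⟨h.sm.continuous, e1 ▸ c1.continuous, ?_⟩
  rw [e2, e1]
  exact c2.continuous

/-- **The pointwise hypotheses of the tube theorem for the slow profile.**  `f` is the ratio
`Φ''/Φ'` of the outer function; the set of `r` is any compact interval on which `r ≤ r₁` or
`L - 1 ≥ L/(10 r)`. -/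
theorem tube_prof {ι : Type*} [Fintype ι] [DecidableEq ι] (hι : 3 ≤ Fintype.card ι) {f : ℝ}
    (hf : f = 9 / 10 ∨ f = 2)
    (h : IsProf 2 Li ε r₁ R₁ Φ Φ₁ Φ₂ L e) (hε : ε ≤ 1 / 100) (hr1 : 10 ≤ r₁)
    {a b : ℝ} (ha : 0 < a) (hb : a ≤ b)
    (hab : ∀ r ∈ Icc a b, r ≤ r₁ ∨ L r / r / 10 ≤ L r - 1) :
    ∃ ρ δ θ c : ℝ, 0 < ρ ∧ 0 < δ ∧ δ < 1 ∧ 0 < θ ∧ θ < 1 ∧ 0 < c ∧
      ∀ (τ nu K : ℝ) (p p' q : ι → ℝ) (P P' : ι → ι → ℝ), τ = ∑ i, q i ^ 2 →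
      τ ∈ Icc (a ^ 2) (b ^ 2) →
      0 ≤ nu → |K - f * nu| ≤ ρ → |∑ i, p i ^ 2 - 1| ≤ ρ → (∀ i, |p i - p' i| ≤ ρ) →
      (∀ i l, |P i l| ≤ ρ) → (∀ i l, |P' i l| ≤ ρ) →
      (∀ i, |(nu + Φ τ) * p i + 2 * Φ₁ τ * q i| ≤ ρ) →
      Hyp (Hex nu K (Φ τ) (2 * Φ₁ τ) (4 * Φ₂ τ) p q P) (Mex K (Φ τ) (2 * Φ₁ τ) (4 * Φ₂ τ) p p' q)
        (Gex nu K (Φ τ) (2 * Φ₁ τ) (4 * Φ₂ τ) p' q P') (yex nu (Φ τ) (2 * Φ₁ τ) p' q)
        (kap δ (2 * Φ₁ τ)) (sig K (2 * Φ₁ τ) (Φ τ) (√τ * (2 * Φ₁ τ)) (2 * Φ₁ τ + 4 * Φ₂ τ * τ))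
        θ c := by
  obtain ⟨c0, c1, c2⟩ := prof_cont h
  refine tube_pt3 (ι := ι) (by positivity : 0 < a ^ 2) c0.continuousOn c1.continuousOn
    c2.continuousOn (fun τ hτ => (h.pos τ (lt_of_lt_of_le (by positivity) hτ.1)).le) ?_
  intro τ hτ
  have τ0 : 0 < τ := lt_of_lt_of_le (by positivity) hτ.1
  have hs0 : 0 < √τ := Real.sqrt_pos.2 τ0
  have hsq : √τ ^ 2 = τ := Real.sq_sqrt τ0.le
  have hm : √τ ∈ Icc a b := by
    refine ⟨?_, ?_⟩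
    · rw [← Real.sqrt_sq ha.le]; exact Real.sqrt_le_sqrt hτ.1
    · rw [← Real.sqrt_sq (ha.le.trans hb)]; exact Real.sqrt_le_sqrt hτ.2
  have key : Sc (Fintype.card ι) f (2 * Φ₁ (√τ ^ 2)) (Φ (√τ ^ 2))
      (√(√τ ^ 2) * (2 * Φ₁ (√τ ^ 2))) (2 * Φ₁ (√τ ^ 2) + 4 * Φ₂ (√τ ^ 2) * √τ ^ 2) := by
    rcases hf with rfl | rfl
    · exact sc_prof h hε hr1 (by exact_mod_cast hι) hs0 (hab _ hm)
    · exact sc_prof2 h hε hr1 (by exact_mod_cast hι) hs0 (hab _ hm)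
  rw [hsq] at key
  exact key

end prof

end Vale.Agent.P088.R2.H312.T
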