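import Vale.Agent.P088.R2.H312.T.ScP

/-!
# The tube hypotheses for the slow profile with `r₁ ≥ 1`
-/

open Set Filter Topology
open scoped ContDiff
open Vale.Agent.P088.R2.H644 (IsProf Lz ez)

noncomputable section

namespace Vale.Agent.P088.R2.H312.T

/-- `4 B² < C A`, `x` close to `(d - 1)(d + 3)/2`. -/
lemma mid_key {d x : ℝ} (d0 : 1 ≤ d) (d1 : d ≤ 141 / 100) (h1 : (d - 1) * (d + 3) / 2 ≤ x)
    (h2 : x ≤ (d - 1) * (d + 3) / 2 + 1 / 10) :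
    4 * (d ^ 2 + 11 / 10 * d - x) ^ 2 <
      ((d + 2) ^ 2 + 9 / 10 * d - x) * (d ^ 2 + 9 / 10 * d - x) := by
  obtain ⟨s, hs, rfl⟩ : ∃ s, 0 ≤ s ∧ d = 1 + s := ⟨d - 1, by linarith, by ring⟩
  obtain ⟨y, hy, rfl⟩ : ∃ y, 0 ≤ y ∧ x = (1 + s - 1) * (1 + s + 3) / 2 + y :=
    ⟨x - (1 + s - 1) * (1 + s + 3) / 2, by linarith, by ring⟩
  have s1 : s ≤ 41 / 100 := by linarith
  have y1 : y ≤ 1 / 10 := by linarith
  have e : ((1 + s + 2) ^ 2 + 9 / 10 * (1 + s) - ((1 + s - 1) * (1 + s + 3) / 2 + y)) *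
      ((1 + s) ^ 2 + 9 / 10 * (1 + s) - ((1 + s - 1) * (1 + s + 3) / 2 + y)) -
      4 * ((1 + s) ^ 2 + 11 / 10 * (1 + s) - ((1 + s - 1) * (1 + s + 3) / 2 + y)) ^ 2 =
      (117 / 100 - 13 / 50 * s - 293 / 100 * s ^ 2 - 3 / 2 * s ^ 3 - 3 / 4 * s ^ 4) +
        y * (5 + 3 * s + 3 * s ^ 2 - 3 * y) := by ring
  have g2 : s ^ 2 ≤ (41 / 100) ^ 2 := pow_le_pow_left₀ hs s1 2
  have g3 : s ^ 3 ≤ (41 / 100) ^ 3 := pow_le_pow_left₀ hs s1 3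
  have g4 : s ^ 4 ≤ (41 / 100) ^ 4 := pow_le_pow_left₀ hs s1 4
  have g5 : 0 ≤ y * (5 + 3 * s + 3 * s ^ 2 - 3 * y) := mul_nonneg hy (by nlinarith [sq_nonneg s])
  norm_num at g2 g3 g4
  linarith

lemma mid_key2 {d x : ℝ} (d0 : 1 ≤ d) (d1 : d ≤ 141 / 100) (h1 : (d - 1) * (d + 3) / 2 ≤ x)
    (h2 : x ≤ (d - 1) * (d + 3) / 2 + 1 / 10) :
    4 * (d ^ 2 - x) ^ 2 < ((d + 2) ^ 2 + 2 * d - x) * (d ^ 2 + 2 * d - x) := by
  obtain ⟨s, hs, rfl⟩ : ∃ s, 0 ≤ s ∧ d = 1 + s := ⟨d - 1, by linarith, by ring⟩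
  obtain ⟨y, hy, rfl⟩ : ∃ y, 0 ≤ y ∧ x = (1 + s - 1) * (1 + s + 3) / 2 + y :=
    ⟨x - (1 + s - 1) * (1 + s + 3) / 2, by linarith, by ring⟩
  have s1 : s ≤ 41 / 100 := by linarith
  have y1 : y ≤ 1 / 10 := by linarith
  have e : ((1 + s + 2) ^ 2 + 2 * (1 + s) - ((1 + s - 1) * (1 + s + 3) / 2 + y)) *
      ((1 + s) ^ 2 + 2 * (1 + s) - ((1 + s - 1) * (1 + s + 3) / 2 + y)) -
      4 * ((1 + s) ^ 2 - ((1 + s - 1) * (1 + s + 3) / 2 + y)) ^ 2 =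
      (29 + 40 * s + 15 * s ^ 2 + 4 * s ^ 3 - 3 / 4 * s ^ 4) -
        y * (6 + 8 * s - 3 * s ^ 2 + 3 * y) := by ring
  have g4 : s ^ 4 ≤ (41 / 100) ^ 4 := pow_le_pow_left₀ hs s1 4
  have g5 : y * (6 + 8 * s - 3 * s ^ 2 + 3 * y) ≤ 1 / 10 * 10 :=
    mul_le_mul y1 (by nlinarith [sq_nonneg s]) (by nlinarith [sq_nonneg s]) (by norm_num)
  have g6 : 0 ≤ s ^ 3 := by positivity
  have g7 : 0 ≤ s ^ 2 := by positivity
  norm_num at g4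
  linarith

/-- Crude bounds for `1 ≤ r ≤ 6/5`. -/
lemma crude {n A B C k : ℝ} (hn : 3 ≤ n) (A0 : 2 ≤ A) (hB : |B| ≤ 16 / 5) (hk : 47 / 25 ≤ k)
    (hkC : k < C) (hC : 13 ≤ k + C) :
    2 * B ^ 2 < A * (k + C) ∧ 4 * k ^ 3 < (k + C) * (A ^ 2 + (n - 1) * k ^ 2) ∧
      4 * (A * B ^ 2) < (k + C) * (A ^ 2 + (n - 1) * k ^ 2) := by
  have hk2 : 7 / 2 ≤ k ^ 2 := by nlinarith
  have hn2 : 2 * k ^ 2 ≤ (n - 1) * k ^ 2 := mul_le_mul_of_nonneg_right (by linarith) (by positivity)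
  have hB2 : B ^ 2 ≤ 256 / 25 := by
    have := abs_le.1 hB
    nlinarith
  refine ⟨?_, ?_, ?_⟩
  · have : (2 : ℝ) * 13 ≤ A * (k + C) := mul_le_mul A0 hC (by norm_num) (by linarith)
    linarith
  · have h3 : (2 * k) * (2 * k ^ 2) < (k + C) * (2 * k ^ 2) :=
      mul_lt_mul_of_pos_right (by linarith) (by positivity)
    have h4 : (k + C) * (2 * k ^ 2) ≤ (k + C) * (A ^ 2 + (n - 1) * k ^ 2) :=
      mul_le_mul_of_nonneg_left (by nlinarith) (by linarith)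
    linarith [show (2 * k) * (2 * k ^ 2) = 4 * k ^ 3 by ring]
  · have h1 : 4 * (A * B ^ 2) ≤ 41 * A := by nlinarith
    have h2 : (13 : ℝ) * (A ^ 2 + 7) ≤ (k + C) * (A ^ 2 + (n - 1) * k ^ 2) :=
      mul_le_mul hC (by linarith) (by positivity) (by linarith)
    nlinarith [sq_nonneg (A - 3 / 2)]

section dx

variable {n d x k : ℝ}

lemma dx_fin (hn : 3 ≤ n) (hk : 0 < k) (hd : 98 / 100 ≤ d)
    (A9 : 0 < d ^ 2 + 9 / 10 * d - x) (A2 : 0 < d ^ 2 + 2 * d - x)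
    (C9 : k < (d + 2) ^ 2 + 9 / 10 * d - x) (C2 : k < (d + 2) ^ 2 + 2 * d - x)
    (h1 : 4 * (d ^ 2 + 11 / 10 * d - x) ^ 2 <
        ((d + 2) ^ 2 + 9 / 10 * d - x) * (d ^ 2 + 9 / 10 * d - x))
    (h2 : 4 * (d ^ 2 - x) ^ 2 < ((d + 2) ^ 2 + 2 * d - x) * (d ^ 2 + 2 * d - x)) :
    Sc n (9 / 10) k 1 (d + 1) ((d + 1) ^ 2 - x) ∧ Sc n 2 k 1 (d + 1) ((d + 1) ^ 2 - x) := by
  have eB : (9 / 10 * d - (d ^ 2 + 2 * d) + x) ^ 2 = (d ^ 2 + 11 / 10 * d - x) ^ 2 := by ring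
  have eB2 : (2 * d - (d ^ 2 + 2 * d) + x) ^ 2 = (d ^ 2 - x) ^ 2 := by ring
  obtain ⟨t1, t2, t3⟩ := big_r hn hk A9 C9 h1
  obtain ⟨u1, u2, u3⟩ := big_r hn hk A2 C2 h2
  refine ⟨Sc.of_dx hk (by linarith) C9 ?_ t2 ?_, Sc.of_dx hk (by linarith) C2 ?_ u2 ?_⟩
  · rw [eB]; exact t1
  · rw [eB]; exact t3
  · rw [eB2]; exact u1
  · rw [eB2]; exact u3

lemma dx_one (d0 : 98 / 100 ≤ d) (h1 : d ≤ 1) (hx : 0 ≤ x) (hx1 : x ≤ 1 / 10) :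
    4 * (d ^ 2 + 11 / 10 * d - x) ^ 2 <
        ((d + 2) ^ 2 + 9 / 10 * d - x) * (d ^ 2 + 9 / 10 * d - x) := by
  have e2 : 0 ≤ 6 * (x * d ^ 2) + 3 * (x * d) := by positivity
  have h5 : 4 * x + 3 * x ^ 2 ≤ 1 / 2 := by nlinarith
  have h6 := cub (d := d) (by linarith) (by linarith)
  have h7 : d * (9 / 10) ≤ d * (-3 * d ^ 3 - 3 * d ^ 2 + 357 / 100 * d + 18 / 5) :=
    mul_le_mul_of_nonneg_left h6 (by linarith)
  have e1 : ((d + 2) ^ 2 + 9 / 10 * d - x) * (d ^ 2 + 9 / 10 * d - x) -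
      4 * (d ^ 2 + 11 / 10 * d - x) ^ 2 =
      d * (-3 * d ^ 3 - 3 * d ^ 2 + 357 / 100 * d + 18 / 5) - 4 * x - 3 * x ^ 2 +
        (6 * (x * d ^ 2) + 3 * (x * d)) := by ring
  linarith

lemma dx_crude (hn : 3 ≤ n) (hk : 47 / 25 ≤ k) (h2 : 141 / 100 < d) (hdm : d ≤ 174 / 100)
    (hxm : (d - 1) * (d + 3) / 2 ≤ x) (hxM : x ≤ (d - 1) * (d + 3) / 2 + 1 / 10)
    (C9 : k < (d + 2) ^ 2 + 9 / 10 * d - x) (C2 : k < (d + 2) ^ 2 + 2 * d - x) :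
    Sc n (9 / 10) k 1 (d + 1) ((d + 1) ^ 2 - x) ∧ Sc n 2 k 1 (d + 1) ((d + 1) ^ 2 - x) := by
  have hxm' : (d - 1) * (d + 3) / 2 = d ^ 2 / 2 + d - 3 / 2 := by ring
  rw [hxm'] at hxm hxM
  have hd2 : (141 / 100) * d ≤ d ^ 2 := by nlinarith
  have hd3 : d ^ 2 ≤ 174 / 100 * d := by nlinarith
  have c4 : (d + 2) ^ 2 = d ^ 2 + 4 * d + 4 := by ring
  obtain ⟨t1, t2, t3⟩ := crude hn (A := d ^ 2 + 9 / 10 * d - x)
    (B := 9 / 10 * d - (d ^ 2 + 2 * d) + x) (C := (d + 2) ^ 2 + 9 / 10 * d - x) (k := k)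
    (by linarith) (abs_le.2 ⟨by linarith, by linarith⟩) hk C9 (by rw [c4]; linarith)
  obtain ⟨u1, u2, u3⟩ := crude hn (A := d ^ 2 + 2 * d - x)
    (B := 2 * d - (d ^ 2 + 2 * d) + x) (C := (d + 2) ^ 2 + 2 * d - x) (k := k)
    (by linarith) (abs_le.2 ⟨by linarith, by linarith⟩) hk C2 (by rw [c4]; linarith)
  exact ⟨Sc.of_dx (by linarith) (by linarith) C9 t1 t2 t3,
    Sc.of_dx (by linarith) (by linarith) C2 u1 u2 u3⟩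

theorem sc_dx (hn : 3 ≤ n) (hk : 0 < k) (hd0 : 98 / 100 ≤ d) (hd1 : d ≤ 174 / 100)
    (hx : 0 ≤ x) (hxm : (d - 1) * (d + 3) / 2 ≤ x) (hxM : x ≤ (d - 1) * (d + 3) / 2 + 1 / 10)
    (hkL : k ≤ d + 1) (hkk : 141 / 100 < d → 47 / 25 ≤ k) :
    Sc n (9 / 10) k 1 (d + 1) ((d + 1) ^ 2 - x) ∧ Sc n 2 k 1 (d + 1) ((d + 1) ^ 2 - x) := by
  have d2 : 0 < d ^ 2 := by positivity
  have hxd : x ≤ d ^ 2 / 2 + d - 14 / 10 := by linarith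
  have hdd : d ^ 2 ≤ 174 / 100 * d := by nlinarith
  have hdd1 : 98 / 100 * d ≤ d ^ 2 := by nlinarith
  have c4 : (d + 2) ^ 2 = d ^ 2 + 4 * d + 4 := by ring
  have A9 : 0 < d ^ 2 + 9 / 10 * d - x := by linarith
  have A2 : 0 < d ^ 2 + 2 * d - x := by linarith
  have C9 : k < (d + 2) ^ 2 + 9 / 10 * d - x := by rw [c4]; linarith
  have C2 : k < (d + 2) ^ 2 + 2 * d - x := by rw [c4]; linarith
  rcases le_or_gt d 1 with h1 | h1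
  · have hx1 : x ≤ 1 / 10 := by
      have : (d - 1) * (d + 3) ≤ 0 := mul_nonpos_of_nonpos_of_nonneg (by linarith) (by linarith)
      linarith
    exact dx_fin hn hk hd0 A9 A2 C9 C2 (dx_one hd0 h1 hx hx1)
      (slow_key2 (by linarith) (by linarith) hx (by linarith))
  rcases le_or_gt d (141 / 100) with h2 | h2
  · exact dx_fin hn hk hd0 A9 A2 C9 C2 (mid_key h1.le h2 hxm hxM) (mid_key2 h1.le h2 hxm hxM)
  · exact dx_crude hn (hkk h2) h2 hd1 hxm hxM C9 C2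

end dx

/-- The middle range. `c = coth r`, `L = 2 c ρ`, `x = e L / r`. -/
theorem sc_mid {n r c ρ x : ℝ} (hn : 3 ≤ n) (hr : 1 ≤ r) (hc : 1 < c)
    (hs : r ≤ 6 / 5 → r * c ≤ 37 / 25 ∧ c * (r * c - 1) ≤ r / 2)
    (hb : 6 / 5 ≤ r → c ≤ 241 / 200) (hρ : 99 / 100 ≤ ρ) (hρ1 : ρ ≤ 1)
    (hx0 : ρ * (2 * (c ^ 2 - 1)) ≤ x) (hx1 : x ≤ ρ * (2 * (c ^ 2 - 1)) + 1 / 100) :
    Sc n (9 / 10) (2 * c * ρ / r) 1 (2 * c * ρ - 1 + 1) ((2 * c * ρ - 1 + 1) ^ 2 - x) ∧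
    Sc n 2 (2 * c * ρ / r) 1 (2 * c * ρ - 1 + 1) ((2 * c * ρ - 1 + 1) ^ 2 - x) := by
  have hr0 : 0 < r := by linarith
  have hc0 : 0 < c := by linarith
  have hρ0 : 0 < ρ := by linarith
  have hc2 : c ^ 2 ≤ 137 / 100 * c := by
    rcases le_or_gt r (6 / 5) with h | h
    · have := (hs h).2
      have h3 : c ^ 2 ≤ 1 / 2 + c / r := by
        have h4 : r * c ^ 2 ≤ r * (1 / 2 + c / r) := by
          rw [mul_add, mul_div_cancel₀ _ hr0.ne']; linarith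
        exact le_of_mul_le_mul_left h4 hr0
      have h5 : c / r ≤ c := div_le_self hc0.le hr
      nlinarith
    · have := hb h.le
      nlinarith
  have hc3 : c ≤ 137 / 100 := by nlinarith
  have hcρ : c * ρ ≤ c := mul_le_of_le_one_right hc0.le hρ1
  have hcρ1 : 99 / 100 ≤ c * ρ := by nlinarith
  have hx2 : 0 ≤ ρ * (2 * (c ^ 2 - 1)) := mul_nonneg hρ0.le (by nlinarith)
  have e0 : ρ * (2 * (c ^ 2 - 1)) - (2 * c * ρ - 1 - 1) * (2 * c * ρ - 1 + 3) / 2 =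
      2 * (1 - ρ) * (1 + c ^ 2 * ρ) := by ring
  have h3 : c ^ 2 * ρ ≤ 2 := by
    have : c ^ 2 * ρ ≤ c ^ 2 := mul_le_of_le_one_right (by positivity) hρ1
    nlinarith
  have e2 : 2 * (1 - ρ) * (1 + c ^ 2 * ρ) ≤ 2 * (1 / 100) * (1 + 2) :=
    mul_le_mul (by linarith) (by linarith) (by positivity) (by norm_num)
  have e3 : 0 ≤ 2 * (1 - ρ) * (1 + c ^ 2 * ρ) := mul_nonneg (by linarith) (by positivity)
  have h0 : 0 < 2 * c * ρ := by positivity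
  refine sc_dx hn (by positivity) (by linarith) (by linarith) (hx2.trans hx0) (by linarith)
    (by linarith) ?_ fun h2 => ?_
  · rw [div_le_iff₀ hr0]; nlinarith
  · have h : r ≤ 6 / 5 := by
      by_contra hcon
      push Not at hcon
      have := hb hcon.le
      linarith
    obtain ⟨_, hs2⟩ := hs h
    have h4 : r * (2 * c ^ 2 - 1) ≤ 2 * c := by linarith
    have h5 : (141 / 100 + 1) ^ 2 / 2 - 1 ≤ 2 * c ^ 2 - 1 := by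
      have h6 : ((141 / 100 + 1) / 2) ^ 2 ≤ c ^ 2 :=
        pow_le_pow_left₀ (by norm_num) (by linarith) 2
      linarith
    have h7 : (2 * c ^ 2 - 1) * ρ ≤ 2 * c * ρ / r := by
      rw [le_div_iff₀ hr0]
      have := mul_le_mul_of_nonneg_right h4 hρ0.le
      linarith
    have h9 : ((141 / 100 + 1) ^ 2 / 2 - 1) * (99 / 100) ≤ (2 * c ^ 2 - 1) * ρ :=
      mul_le_mul h5 hρ (by norm_num) (by nlinarith)
    refine le_trans ?_ (h9.trans h7)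
    norm_num

end Vale.Agent.P088.R2.H312.T
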