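import Vale.Agent.P088.R2.H312.T.ScQ

/-!
# The tube hypotheses for the profile of the package (`r₁ = 1`)
-/

open Set Filter Topology
open scoped ContDiff
open Vale.Agent.P088.R2.H644 (IsProf Lz ez)

noncomputable section

namespace Vale.Agent.P088.R2.H312.T

section prof

variable {Li ε r₁ R₁ n r : ℝ} {Φ Φ₁ Φ₂ L e : ℝ → ℝ}

/-- `L ≥ Lz (1 - ε (r/r₁ - 1))` for `r ≥ r₁`. -/
lemma L_lower (h : IsProf 2 Li ε r₁ R₁ Φ Φ₁ Φ₂ L e) (hε : 0 ≤ ε) (h1 : 0 < r₁) (hr : r₁ ≤ r) :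
    Lz 2 r * (1 - ε * (r / r₁ - 1)) ≤ L r := by
  have hL : ∀ r, 0 < L r := fun r => h.Li_pos.trans_le (h.Li_le r)
  have hd : ∀ x, 0 < x → HasDerivAt
      (fun x => Real.log (L x) - Real.log (Lz 2 x) + ε * Real.log x)
      ((ez 2 x + ε - e x) / x) x := by
    intro x hx
    have d1 := (h.dL x hx).log (hL x).ne'
    have d2 := H644.hasDerivAt_log_Lz two_pos hx
    have d3 := (Real.hasDerivAt_log hx.ne').const_mul ε
    refine ((d1.sub d2).add d3).congr_deriv ?_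
    have := (hL x).ne'
    field_simp
    ring
  have hm : MonotoneOn (fun x => Real.log (L x) - Real.log (Lz 2 x) + ε * Real.log x)
      (Ici r₁) := by
    refine monotoneOn_of_deriv_nonneg (convex_Ici r₁)
      (fun x hx => (hd x (h1.trans_le hx)).continuousAt.continuousWithinAt)
      (fun x hx => ?_) fun x hx => ?_
    · rw [interior_Ici] at hx
      exact (hd x (h1.trans hx)).differentiableAt.differentiableWithinAt
    · rw [interior_Ici] at hx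
      have hx' : 0 < x := h1.trans hx
      rw [(hd x hx').deriv]
      exact div_nonneg (by linarith [h.e_le x hx']) hx'.le
  have h2 := hm (mem_Ici.2 le_rfl) (mem_Ici.2 hr) hr
  simp only at h2
  rw [h.L_near r₁ h1 le_rfl] at h2
  have hr0 : 0 < r := h1.trans_le hr
  have hz : 0 < Lz 2 r := H644.Lz_pos two_pos hr0
  have h3 : Real.log (r / r₁) ≤ r / r₁ - 1 := Real.log_le_sub_one_of_pos (by positivity)
  rw [Real.log_div hr0.ne' h1.ne'] at h3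
  have h4 : Real.log (Lz 2 r) - ε * (r / r₁ - 1) ≤ Real.log (L r) := by
    have := mul_le_mul_of_nonneg_left h3 hε
    linarith
  have h5 := Real.exp_le_exp.2 h4
  rw [Real.exp_log (hL r), sub_eq_add_neg, Real.exp_add, Real.exp_log hz] at h5
  have h6 := Real.add_one_le_exp (-(ε * (r / r₁ - 1)))
  have h7 := mul_le_mul_of_nonneg_left h6 hz.le
  linarith

/-- The scalar inequalities for the profile with `r₁ ≥ 1`, `f = 9/10` and `f = 2`. -/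
theorem sc_prof' (h : IsProf 2 Li ε r₁ R₁ Φ Φ₁ Φ₂ L e) (hε0 : 0 ≤ ε) (hε : ε ≤ 1 / 1000)
    (hr1 : 1 ≤ r₁) (hmid : ∀ r, r₁ < r → r ≤ 10 → ez 2 r ≤ e r)
    (hn : 3 ≤ n) (hr : 0 < r) (hcase : r ≤ 10 ∨ L r / r / 10 ≤ L r - 1) :
    Sc n (9 / 10) (2 * Φ₁ (r ^ 2)) (Φ (r ^ 2)) (√(r ^ 2) * (2 * Φ₁ (r ^ 2)))
      (2 * Φ₁ (r ^ 2) + 4 * Φ₂ (r ^ 2) * r ^ 2) ∧
    Sc n 2 (2 * Φ₁ (r ^ 2)) (Φ (r ^ 2)) (√(r ^ 2) * (2 * Φ₁ (r ^ 2)))
      (2 * Φ₁ (r ^ 2) + 4 * Φ₂ (r ^ 2) * r ^ 2) := by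
  obtain ⟨a1, a2, a3⟩ := prof_letters h hr
  have hΦ := h.pos (r ^ 2) (by positivity)
  have hL : 0 < L r := h.Li_pos.trans_le (h.Li_le r)
  suffices H : Sc n (9 / 10) (L r / r) 1 (L r - 1 + 1) ((L r - 1 + 1) ^ 2 - e r * (L r / r)) ∧
      Sc n 2 (L r / r) 1 (L r - 1 + 1) ((L r - 1 + 1) ^ 2 - e r * (L r / r)) by
    have H1 := H.1.scale hΦ
    have H2 := H.2.scale hΦ
    rw [a3, a2, a1]
    rw [mul_one] at H1 H2
    exact ⟨H1, H2⟩
  obtain ⟨c, hc, c1, c2, c3, c4, c5⟩ := coth_facts hr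
  have hc0 : 0 < c := by linarith
  rcases le_or_gt r r₁ with h1 | h1
  · have hLc : L r = 2 * c := (h.L_near r hr h1).trans c1
    have hx : e r * (L r / r) = 2 * (c ^ 2 - 1) := by
      rw [h.e_near r hr h1, hLc]
      have : ez 2 r * (2 * c / r) = 2 * (ez 2 r * c) / r := by ring
      rw [this, c2]
      field_simp
    rw [hx, hLc]
    exact ⟨sc_coth hn hr hc c3 c4 c5, sc_coth2 hn hr hc c3 c4 c5⟩
  rcases le_or_gt r 10 with h2 | h2
  · have hr1' : 1 ≤ r := by linarith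
    set ρ := L r / (2 * c) with hρd
    have hLρ : L r = 2 * c * ρ := by rw [hρd]; field_simp
    have hρ1 : ρ ≤ 1 := by
      rw [hρd, div_le_one (by positivity), ← c1]
      exact h.L_le r hr
    have hρ : 99 / 100 ≤ ρ := by
      have h3 := L_lower h hε0 (by linarith) h1.le
      rw [c1] at h3
      rw [hρd, le_div_iff₀ (by positivity)]
      have h4 : r / r₁ ≤ 10 := by
        rw [div_le_iff₀ (by linarith)]; linarith
      have h5 : ε * (r / r₁ - 1) ≤ 1 / 1000 * 9 :=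
        mul_le_mul hε (by linarith) (by
          rw [sub_nonneg, one_le_div (by linarith)]; exact h1.le) (by norm_num)
      have h6 := mul_le_mul_of_nonneg_left h5 (by linarith : (0 : ℝ) ≤ 2 * c)
      linarith
    have hz : ez 2 r * (L r / r) = ρ * (2 * (c ^ 2 - 1)) := by
      have : ez 2 r * (L r / r) = ρ * (2 * (ez 2 r * c)) / r := by rw [hLρ]; ring
      rw [this, c2]
      field_simp
    have hLr : 0 < L r / r := by positivity
    have hx0 : ρ * (2 * (c ^ 2 - 1)) ≤ e r * (L r / r) := by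
      rw [← hz]
      exact mul_le_mul_of_nonneg_right (hmid r h1 h2) hLr.le
    have hx1 : e r * (L r / r) ≤ ρ * (2 * (c ^ 2 - 1)) + 1 / 100 := by
      rw [← hz]
      have h5 := mul_le_mul_of_nonneg_right (h.e_le r hr) hLr.le
      have h6 : L r / r ≤ 3 := by
        rw [div_le_iff₀ hr]
        have h7 : L r ≤ 2 * c := c1 ▸ h.L_le r hr
        have h8 : c ≤ 37 / 25 := by
          rcases le_or_gt r (6 / 5) with h9 | h9
          · have := (c4 h9).1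
            nlinarith
          · linarith [c5 h9.le]
        linarith
      have h7 : ε * (L r / r) ≤ 1 / 1000 * 3 := mul_le_mul hε h6 hLr.le (by norm_num)
      linarith
    rw [hLρ] at hx0 hx1 ⊢
    exact sc_mid hn hr1' hc c4 c5 hρ hρ1 hx0 hx1
  · have hd : L r / r / 10 ≤ L r - 1 := by
      rcases hcase with h3 | h3
      · exact absurd h2 (not_lt.2 h3)
      · exact h3
    have hLf := (h.L_le r hr).trans (Lz_far h2.le)
    have hk : L r / r ≤ 1 / 4 := by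
      rw [div_le_iff₀ hr]; linarith
    have he : e r ≤ 1 / 40 := by
      have b1 := h.e_le r hr
      have b2 : ez 2 r ≤ 6 / (6 + (2 * r) ^ 2) := H644.ez_le two_pos hr
      have b3 : 6 / (6 + (2 * r) ^ 2) ≤ 3 / 200 := by
        rw [div_le_div_iff₀ (by positivity) (by norm_num)]; nlinarith
      linarith
    have hk0 : 0 < L r / r := div_pos hL hr
    have hx : e r * (L r / r) ≤ L r / r / 40 := by
      have := mul_le_mul_of_nonneg_right he hk0.le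
      linarith
    exact ⟨sc_slow hn hk0 hk hd (by linarith) (mul_nonneg (h.e_nonneg r hr) hk0.le) hx,
      sc_slow2 hn hk0 hk hd (by linarith) (mul_nonneg (h.e_nonneg r hr) hk0.le) hx⟩

/-- **The pointwise hypotheses of the tube theorem for the slow profile, `r₁ ≥ 1`.** -/
theorem tube_prof' {ι : Type*} [Fintype ι] [DecidableEq ι] (hι : 3 ≤ Fintype.card ι) {f : ℝ}
    (hf : f = 9 / 10 ∨ f = 2)
    (h : IsProf 2 Li ε r₁ R₁ Φ Φ₁ Φ₂ L e) (hε0 : 0 ≤ ε) (hε : ε ≤ 1 / 1000)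
    (hr1 : 1 ≤ r₁) (hmid : ∀ r, r₁ < r → r ≤ 10 → ez 2 r ≤ e r)
    {a b : ℝ} (ha : 0 < a) (hb : a ≤ b)
    (hab : ∀ r ∈ Icc a b, r ≤ 10 ∨ L r / r / 10 ≤ L r - 1) :
    ∃ ρ δ θ c : ℝ, 0 < ρ ∧ 0 < δ ∧ δ < 1 ∧ 0 < θ ∧ θ < 1 ∧ 0 < c ∧
      ∀ (τ nu K : ℝ) (p p' q : ι → ℝ) (P P' : ι → ι → ℝ), τ = ∑ i, q i ^ 2 →
      τ ∈ Icc (a ^ 2) (b ^ 2) →
      0 ≤ nu → |K - f * nu| ≤ ρ → |∑ i, p i ^ 2 - 1| ≤ ρ → (∀ i, |p i - p' i| ≤ ρ) →
      (∀ i l, |P i l| ≤ ρ) → (∀ i l, |P' i l| ≤ ρ) →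
      (∀ i, |(nu + Φ τ) * p i + 2 * Φ₁ τ * q i| ≤ ρ) →
      Hyp (Hex nu K (Φ τ) (2 * Φ₁ τ) (4 * Φ₂ τ) p q P) (Mex K (Φ τ) (2 * Φ₁ τ) (4 * Φ₂ τ) p p' q)
        (Gex nu K (Φ τ) (2 * Φ₁ τ) (4 * Φ₂ τ) p' q P') (yex nu (Φ τ) (2 * Φ₁ τ) p' q)
        (kap δ (2 * Φ₁ τ)) (sig K (2 * Φ₁ τ) (Φ τ) (√τ * (2 * Φ₁ τ)) (2 * Φ₁ τ + 4 * Φ₂ τ * τ))
        θ c := by
  obtain ⟨c0, c1, c2⟩ := prof_cont h
  refine tube_pt3 (ι := ι) (by positivity : 0 < a ^ 2) c0.continuousOn c1.continuousOn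
    c2.continuousOn (fun τ hτ => (h.pos τ (lt_of_lt_of_le (by positivity) hτ.1)).le) ?_
  intro τ hτ
  have τ0 : 0 < τ := lt_of_lt_of_le (by positivity) hτ.1
  have hs0 : 0 < √τ := Real.sqrt_pos.2 τ0
  have hsq : √τ ^ 2 = τ := Real.sq_sqrt τ0.le
  have hm : √τ ∈ Icc a b := by
    refine ⟨?_, ?_⟩
    · rw [← Real.sqrt_sq ha.le]; exact Real.sqrt_le_sqrt hτ.1
    · rw [← Real.sqrt_sq (ha.le.trans hb)]; exact Real.sqrt_le_sqrt hτ.2
  have key : Sc (Fintype.card ι) f (2 * Φ₁ (√τ ^ 2)) (Φ (√τ ^ 2))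
      (√(√τ ^ 2) * (2 * Φ₁ (√τ ^ 2))) (2 * Φ₁ (√τ ^ 2) + 4 * Φ₂ (√τ ^ 2) * √τ ^ 2) := by
    obtain ⟨k1, k2⟩ := sc_prof' h hε0 hε hr1 hmid (n := Fintype.card ι) (by exact_mod_cast hι)
      hs0 (hab _ hm)
    rcases hf with rfl | rfl
    · exact k1
    · exact k2
  rw [hsq] at key
  exact key

end prof

/-! ## The profile of the package -/

/-- `PP 2 (4/5) ε 1 (1/10)`. -/
lemma pp_pack {ε : ℝ} (hε : 0 < ε) : H644.PP 2 (4 / 5) ε 1 (1 / 10) := by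
  refine ⟨two_pos, by norm_num, hε, one_pos, by norm_num, ?_⟩
  have : Real.exp (1 / 10) ≤ Real.exp 1 := Real.exp_le_exp.2 (by norm_num)
  have h2 := Real.exp_one_lt_d9
  have h3 : Real.exp (1 / 10) ^ 2 ≤ Real.exp 1 := by
    rw [← Real.exp_nat_mul]
    exact Real.exp_le_exp.2 (by norm_num)
  nlinarith [Real.exp_pos (1 / 10)]

/-- `e ≥ e₀` until `r = 10`. -/
lemma ez_le_ef {ε r : ℝ} (hε : 0 < ε) (hε1 : ε ≤ 1 / 1000) (hr : 0 < r) (hr10 : r ≤ 10) :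
    ez 2 r ≤ H644.ef 2 (4 / 5) ε 1 (1 / 10) r := by
  have hz : 2 ≤ Lz 2 r := H644.le_Lz two_pos hr
  have h1 : Real.log 2 - Real.log (4 / 5) ≤ H644.az 2 (4 / 5) r := by
    unfold H644.az
    have := Real.log_le_log two_pos hz
    linarith
  have h2 : Real.log 2 - Real.log (4 / 5) = Real.log (5 / 2) := by
    rw [← Real.log_div (by norm_num) (by norm_num)]; norm_num
  have h3 : 1 / 2 ≤ Real.log (5 / 2) := by
    rw [Real.le_log_iff_exp_le (by norm_num)]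
    have h4 : Real.exp (1 / 2) ^ 2 ≤ Real.exp 1 := by
      rw [← Real.exp_nat_mul]; exact Real.exp_le_exp.2 (by norm_num)
    have := Real.exp_one_lt_d9
    nlinarith [Real.exp_pos (1 / 2)]
  have h5 : H644.ramp (Real.log r - Real.log 1 - 1) ≤ 10 := by
    have : Real.log r - Real.log 1 - 1 ≤ 10 := by
      have := Real.log_le_sub_one_of_pos hr
      rw [Real.log_one]
      linarith
    calc H644.ramp (Real.log r - Real.log 1 - 1) ≤ H644.ramp 10 := H644.ramp_mono this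
      _ = 10 := H644.ramp_id (by norm_num)
  have h6 : 1 / 10 ≤ H644.gz 2 (4 / 5) ε 1 r := by
    unfold H644.gz
    have h7 := mul_le_mul hε1 h5 (H644.ramp_nonneg _) (by norm_num)
    linarith
  have h7 : H644.kap (H644.gz 2 (4 / 5) ε 1 r / (1 / 10)) = 1 :=
    H644.kap_one (by rw [le_div_iff₀ (by norm_num)]; linarith)
  unfold H644.ef
  rw [h7, one_mul]
  have := mul_nonneg hε.le (H644.kap_nonneg (Real.log r - Real.log 1 - 1))
  linarith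

/-- The profile of the package is a profile. -/
theorem isProf_pack {ε : ℝ} (hε : 0 < ε) : ∃ R₁, IsProf 2 (4 / 5) ε 1 R₁
    (H644.Ph 2 (4 / 5) ε 1 (1 / 10)) (H644.Ph1 2 (4 / 5) ε 1 (1 / 10))
    (H644.Ph2 2 (4 / 5) ε 1 (1 / 10)) (H644.Lf 2 (4 / 5) ε 1 (1 / 10))
    (H644.ef 2 (4 / 5) ε 1 (1 / 10)) := by
  have h := pp_pack hε
  obtain ⟨R₁, hR, hR1⟩ := h.exists_R
  refine ⟨R₁, ?_⟩
  exact
    { sm := h.contDiff_Ph
      d2 := h.d2_Ph
      eq0 := fun s hs => h.Ph_eq hs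
      eq1 := fun s hs => h.Ph1_eq hs
      eq2 := fun s hs => h.Ph2_eq hs
      pos := fun s hs => h.S_pos hs
      pos1 := fun s hs => h.Ph1_pos hs
      smL := h.contDiffOn_Lf
      sme := h.contDiffOn_ef
      dS := fun r hr => h.hasDerivAt_S hr
      dL := fun r hr => h.hasDerivAt_Lf hr
      one := fun r hr => h.Ph1_L hr
      two := fun r hr => h.Ph2_L hr
      L_near := fun r hr h1 => h.Lf_eq hr h1
      e_near := fun r hr h1 => h.ef_eq hr h1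
      e_nonneg := fun r hr => h.ef_nonneg hr
      e_le := fun r hr => h.ef_le hr
      Li_pos := h.L0
      Li_le := fun r => h.Li_le r
      L_le := fun r hr => h.Lf_le hr
      anti := h.antitone_Lf
      r_lt := hR
      L_far := fun r hr => (hR1 r hr).1
      e_far := fun r hr => (hR1 r hr).2
      S_far := fun r hr => h.S_far (h.r0.trans hR) (fun r hr => (hR1 r hr).1) hr
      bd := fun k c₀ hc => h.exists_bound k hc }

/-- **The tube hypotheses for the profile of the package**, `prS ε = H644.Ph 2 (4/5) ε 1 (1/10)`. -/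
theorem tube_pack {ι : Type*} [Fintype ι] [DecidableEq ι] (hι : 3 ≤ Fintype.card ι) {f ε : ℝ}
    (hf : f = 9 / 10 ∨ f = 2) (hε0 : 0 < ε) (hε : ε ≤ 1 / 1000)
    {a b : ℝ} (ha : 0 < a) (hb : a ≤ b)
    (hab : ∀ r ∈ Icc a b, r ≤ 10 ∨ H644.Lf 2 (4 / 5) ε 1 (1 / 10) r / r / 10 ≤
      H644.Lf 2 (4 / 5) ε 1 (1 / 10) r - 1) :
    ∃ ρ δ θ c : ℝ, 0 < ρ ∧ 0 < δ ∧ δ < 1 ∧ 0 < θ ∧ θ < 1 ∧ 0 < c ∧
      ∀ (τ nu K : ℝ) (p p' q : ι → ℝ) (P P' : ι → ι → ℝ), τ = ∑ i, q i ^ 2 →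
      τ ∈ Icc (a ^ 2) (b ^ 2) →
      0 ≤ nu → |K - f * nu| ≤ ρ → |∑ i, p i ^ 2 - 1| ≤ ρ → (∀ i, |p i - p' i| ≤ ρ) →
      (∀ i l, |P i l| ≤ ρ) → (∀ i l, |P' i l| ≤ ρ) →
      (∀ i, |(nu + H644.Ph 2 (4 / 5) ε 1 (1 / 10) τ) * p i +
        2 * H644.Ph1 2 (4 / 5) ε 1 (1 / 10) τ * q i| ≤ ρ) →
      Hyp (Hex nu K (H644.Ph 2 (4 / 5) ε 1 (1 / 10) τ) (2 * H644.Ph1 2 (4 / 5) ε 1 (1 / 10) τ)
          (4 * H644.Ph2 2 (4 / 5) ε 1 (1 / 10) τ) p q P)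
        (Mex K (H644.Ph 2 (4 / 5) ε 1 (1 / 10) τ) (2 * H644.Ph1 2 (4 / 5) ε 1 (1 / 10) τ)
          (4 * H644.Ph2 2 (4 / 5) ε 1 (1 / 10) τ) p p' q)
        (Gex nu K (H644.Ph 2 (4 / 5) ε 1 (1 / 10) τ) (2 * H644.Ph1 2 (4 / 5) ε 1 (1 / 10) τ)
          (4 * H644.Ph2 2 (4 / 5) ε 1 (1 / 10) τ) p' q P')
        (yex nu (H644.Ph 2 (4 / 5) ε 1 (1 / 10) τ) (2 * H644.Ph1 2 (4 / 5) ε 1 (1 / 10) τ) p' q)
        (kap δ (2 * H644.Ph1 2 (4 / 5) ε 1 (1 / 10) τ))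
        (sig K (2 * H644.Ph1 2 (4 / 5) ε 1 (1 / 10) τ) (H644.Ph 2 (4 / 5) ε 1 (1 / 10) τ)
          (√τ * (2 * H644.Ph1 2 (4 / 5) ε 1 (1 / 10) τ))
          (2 * H644.Ph1 2 (4 / 5) ε 1 (1 / 10) τ + 4 * H644.Ph2 2 (4 / 5) ε 1 (1 / 10) τ * τ))
        θ c := by
  obtain ⟨R₁, h⟩ := isProf_pack hε0
  exact tube_prof' hι hf h hε0.le hε le_rfl (fun r hr h2 => ez_le_ef hε0 hε (by linarith) h2)
    ha hb hab

end Vale.Agent.P088.R2.H312.T
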