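import Vale.Agent.P088.R2.H312.T.Mat

/-!
# The hypotheses of the tube theorem near a critical surface, by compactness
-/

open Set Filter Topology Finset

set_option linter.unusedSectionVars false

noncomputable section

namespace Vale.Agent.P088.R2.H312.T

variable {ι : Type*} [Fintype ι] [DecidableEq ι]

/-- Normal entry of `W_xx` (units of `E`), `K = f Φ'`. -/
def Aq (f s s1 s2 : ℝ) : ℝ := f * (s1 - s) + s - 2 * s1 + s2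

/-- Normal entry of `W_xy`. -/
def Bq (f s s2 s1 : ℝ) : ℝ := f * (s1 - s) + s - s2

/-- Normal entry of `W_yy`. -/
def Cq (f s s1 s2 : ℝ) : ℝ := f * (s1 - s) + s + 2 * s1 + s2

/-- The scalar inequalities at a critical point: `k = S'/r`, `s = S`, `s1 = S'`, `s2 = S''`. -/
structure Sc (n f k s s1 s2 : ℝ) : Prop where
  k0 : 0 < k
  s10 : 0 < s1
  Ck : k < Cq f s s1 s2
  h4 : 2 * Bq f s s2 s1 ^ 2 < Aq f s s1 s2 * (k + Cq f s s1 s2)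
  h5a : 4 * k ^ 3 < (k + Cq f s s1 s2) * (Aq f s s1 s2 ^ 2 + (n - 1) * k ^ 2)
  h5b : 4 * (Aq f s s1 s2 * Bq f s s2 s1 ^ 2) <
    (k + Cq f s s1 s2) * (Aq f s s1 s2 ^ 2 + (n - 1) * k ^ 2)

/-- `κ`. -/
def kap (δ k : ℝ) : ℝ := (1 - δ) * k

/-- `σ`. -/
def sig (K k s s1 s2 : ℝ) : ℝ := (K + s + 2 * s1 + s2 - k) / (4 * s1 ^ 2)

/-- The space of errors. -/
abbrev Z (ι : Type*) := (ι → ι → ℝ) × (ι → ι → ℝ) × (ι → ι → ℝ) × (ι → ℝ) × ℝ × ℝ × ℝ × ℝ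

/-- The space of parameters. -/
abbrev X (ι : Type*) := (ℝ × ℝ × ℝ × ℝ) × (ι → ℝ) × (ι → ℝ) × Z ι

section F

variable (f : ℝ) (x : X ι)

def xk (x : X ι) : ℝ := x.1.1
def xs (x : X ι) : ℝ := x.1.2.1
def xs1 (x : X ι) : ℝ := x.1.2.2.1
def xs2 (x : X ι) : ℝ := x.1.2.2.2
def xe (x : X ι) : ι → ℝ := x.2.1
def xv (x : X ι) : ι → ℝ := x.2.2.1
def xK (f : ℝ) (x : X ι) : ℝ := f * (x.1.2.2.1 - x.1.2.1) + x.2.2.2.2.2.2.2.1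
def xθ (x : X ι) : ℝ := x.2.2.2.2.2.2.2.2.1
def xc (x : X ι) : ℝ := x.2.2.2.2.2.2.2.2.2.1
def xδ (x : X ι) : ℝ := x.2.2.2.2.2.2.2.2.2.2

def xH (f : ℝ) (x : X ι) (i l : ι) : ℝ :=
  R1 (Aq f x.1.2.1 x.1.2.2.1 x.1.2.2.2 - x.1.1) x.1.1 x.2.1 i l + x.2.2.2.1 i l

def xM (f : ℝ) (x : X ι) (i l : ι) : ℝ :=
  R1 (Bq f x.1.2.1 x.1.2.2.2 x.1.2.2.1 + x.1.1) (-x.1.1) x.2.1 i l + x.2.2.2.2.1 i l

def xG (f : ℝ) (x : X ι) (i l : ι) : ℝ :=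
  R1 (Cq f x.1.2.1 x.1.2.2.1 x.1.2.2.2 - x.1.1) x.1.1 x.2.1 i l + x.2.2.2.2.2.1 i l

def xy (x : X ι) (i : ι) : ℝ := 2 * x.1.2.2.1 * x.2.1 i + x.2.2.2.2.2.2.1 i

def xg (f : ℝ) (x : X ι) : ℝ :=
  gam (kap (xδ x) x.1.1) (sig (xK f x) x.1.1 x.1.2.1 x.1.2.2.1 x.1.2.2.2) (xy x)

def F1 (f : ℝ) (x : X ι) : ℝ :=
  (∑ i, ∑ l, gg (xH f x) (xM f x) (xg f x) i l * x.2.2.1 i * x.2.2.1 l) - xc x

def F2 (f : ℝ) (x : X ι) : ℝ :=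
  lam (xH f x) (xM f x) (xg f x) (xθ x) (xc x) -
    ∑ i, ∑ l, N3 (xH f x) (xM f x) i l * x.2.2.1 i * x.2.2.1 l

def F3 (f δ : ℝ) (x : X ι) : ℝ :=
  (∑ i, ∑ l, xG f x i l * x.2.2.1 i * x.2.2.1 l) - kap δ x.1.1 * ∑ i, x.2.2.1 i ^ 2 -
    sig (xK f x) x.1.1 x.1.2.1 x.1.2.2.1 x.1.2.2.2 * (∑ i, xy x i * x.2.2.1 i) ^ 2 - xc x

end F

variable {f : ℝ} {x : X ι}

lemma xg_surf {n : ℝ} (hS : Sc n f x.1.1 x.1.2.1 x.1.2.2.1 x.1.2.2.2) (he : ∑ i, x.2.1 i ^ 2 = 1)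
    (h0 : x.2.2.2 = 0) : xg f x = x.1.1 + Cq f x.1.2.1 x.1.2.2.1 x.1.2.2.2 := by
  have h1 : L2 (xy x) = 4 * x.1.2.2.1 ^ 2 := by
    unfold L2 xy
    rw [h0]
    have : ∀ k, (2 * x.1.2.2.1 * x.2.1 k + (0 : Z ι).2.2.2.1 k) *
        (2 * x.1.2.2.1 * x.2.1 k + (0 : Z ι).2.2.2.1 k) = 4 * x.1.2.2.1 ^ 2 * x.2.1 k ^ 2 := by
      intro k
      simp only [Prod.snd_zero, Prod.fst_zero, Pi.zero_apply]
      ring
    rw [Finset.sum_congr rfl fun k _ => this k, ← Finset.mul_sum, he, mul_one]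
  unfold xg gam
  rw [h1]
  unfold kap sig xK xδ
  rw [h0]
  have := hS.s10.ne'
  unfold Cq
  simp only [Prod.snd_zero, Prod.fst_zero]
  field_simp
  ring

lemma xH_surf (h0 : x.2.2.2 = 0) :
    xH f x = R1 (Aq f x.1.2.1 x.1.2.2.1 x.1.2.2.2 - x.1.1) x.1.1 x.2.1 := by
  funext i l
  unfold xH
  rw [h0]
  simp

lemma xM_surf (h0 : x.2.2.2 = 0) :
    xM f x = R1 (Bq f x.1.2.1 x.1.2.2.2 x.1.2.2.1 + x.1.1) (-x.1.1) x.2.1 := by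
  funext i l
  unfold xM
  rw [h0]
  simp

lemma xG_surf (h0 : x.2.2.2 = 0) :
    xG f x = R1 (Cq f x.1.2.1 x.1.2.2.1 x.1.2.2.2 - x.1.1) x.1.1 x.2.1 := by
  funext i l
  unfold xG
  rw [h0]
  simp

/-- `(e.v)² ≤ 1`. -/
lemma ev_le {e v : ι → ℝ} (he : ∑ i, e i ^ 2 = 1) (hv : ∑ i, v i ^ 2 = 1) :
    (∑ i, e i * v i) ^ 2 ≤ 1 := by
  have := Finset.sum_mul_sq_le_sq_mul_sq Finset.univ e v
  rwa [he, hv, one_mul] at this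

lemma F1_pos {n : ℝ} (hS : Sc n f x.1.1 x.1.2.1 x.1.2.2.1 x.1.2.2.2)
    (he : ∑ i, x.2.1 i ^ 2 = 1) (hv : ∑ i, x.2.2.1 i ^ 2 = 1) (h0 : x.2.2.2 = 0) :
    0 < F1 f x := by
  have hg := xg_surf hS he h0
  unfold F1
  simp only [xH_surf h0, xM_surf h0, gg_surf he, R1_form, hv]
  have hc : xc x = 0 := by unfold xc; rw [h0]; rfl
  rw [hc, hg]
  set k := x.1.1
  set s := x.1.2.1
  set s1 := x.1.2.2.1
  set s2 := x.1.2.2.2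
  set A := Aq f s s1 s2
  set B := Bq f s s2 s1
  set C := Cq f s s1 s2
  have hk := hS.k0
  have hC := hS.Ck
  have h4 := hS.h4
  have hg0 : 0 < k + C := by linarith
  have ht := ev_le he hv
  set t := (∑ i, x.2.1 i * x.2.2.1 i) ^ 2
  have ht0 : 0 ≤ t := sq_nonneg _
  have e1 : (A - k - 2 * ((k + C)⁻¹ * (B ^ 2 - k ^ 2))) * t + (k - 2 * ((k + C)⁻¹ * k ^ 2)) * 1 - 0 =
      (k + C)⁻¹ * ((A * (k + C) - 2 * B ^ 2) * t + k * (C - k) * (1 - t)) := by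
    field_simp
    ring
  rw [e1]
  refine mul_pos (inv_pos.2 hg0) ?_
  have a1 : 0 < A * (k + C) - 2 * B ^ 2 := by linarith
  have a2 : 0 < k * (C - k) := mul_pos hk (by linarith)
  rcases eq_or_lt_of_le ht0 with h | h
  · rw [← h]; linarith
  · have := mul_pos a1 h
    have := mul_nonneg a2.le (by linarith : 0 ≤ 1 - t)
    linarith

lemma F2_pos (hS : Sc (Fintype.card ι) f x.1.1 x.1.2.1 x.1.2.2.1 x.1.2.2.2)
    (he : ∑ i, x.2.1 i ^ 2 = 1) (hv : ∑ i, x.2.2.1 i ^ 2 = 1) (h0 : x.2.2.2 = 0) :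
    0 < F2 f x := by
  have hg := xg_surf hS he h0
  have hc : xc x = 0 := by unfold xc; rw [h0]; rfl
  have hθ : xθ x = 0 := by unfold xθ; rw [h0]; rfl
  have hk := hS.k0
  have hC := hS.Ck
  have hg0 : 0 < x.1.1 + Cq f x.1.2.1 x.1.2.2.1 x.1.2.2.2 := by linarith
  unfold F2
  simp only [xH_surf h0, xM_surf h0, N3_surf he, R1_form, hv]
  rw [hc, hθ, hg, lam_surf he hg0.ne']
  set k := x.1.1
  set s := x.1.2.1
  set s1 := x.1.2.2.1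
  set s2 := x.1.2.2.2
  set A := Aq f s s1 s2
  set B := Bq f s s2 s1
  set C := Cq f s s1 s2
  have ha := hS.h5a
  have hb := hS.h5b
  have ht := ev_le he hv
  set t := (∑ i, x.2.1 i * x.2.2.1 i) ^ 2
  have ht0 : 0 ≤ t := sq_nonneg _
  set U := (k + C) * (A ^ 2 + ((Fintype.card ι : ℝ) - 1) * k ^ 2)
  have e1 : 1 / 4 * (k + C) * (A ^ 2 + ((Fintype.card ι : ℝ) - 1) * k ^ 2) -
      ((A * B ^ 2 - k ^ 3) * t + k ^ 3 * 1) =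
      1 / 4 * ((U - 4 * (A * B ^ 2)) * t + (U - 4 * k ^ 3) * (1 - t)) := by
    simp only [U]; ring
  rw [e1]
  have a1 : 0 < U - 4 * (A * B ^ 2) := by linarith
  have a2 : 0 < U - 4 * k ^ 3 := by linarith
  rcases eq_or_lt_of_le ht0 with h | h
  · rw [← h]; linarith
  · have := mul_pos a1 h
    have := mul_nonneg a2.le (by linarith : 0 ≤ 1 - t)
    linarith

lemma F3_pos {n δ : ℝ} (hδ : 0 < δ) (hS : Sc n f x.1.1 x.1.2.1 x.1.2.2.1 x.1.2.2.2)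
    (hv : ∑ i, x.2.2.1 i ^ 2 = 1) (h0 : x.2.2.2 = 0) :
    0 < F3 f δ x := by
  have hc : xc x = 0 := by unfold xc; rw [h0]; rfl
  unfold F3
  simp only [xG_surf h0, R1_form, hv]
  rw [hc]
  have hy : ∑ i, xy x i * x.2.2.1 i = 2 * x.1.2.2.1 * ∑ i, x.2.1 i * x.2.2.1 i := by
    unfold xy
    rw [h0, Finset.mul_sum]
    refine Finset.sum_congr rfl fun i _ => ?_
    simp only [Prod.snd_zero, Prod.fst_zero, Pi.zero_apply]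
    ring
  have hK : xK f x = f * (x.1.2.2.1 - x.1.2.1) := by
    unfold xK
    rw [h0]
    simp
  rw [hy, hK]
  unfold kap sig Cq
  have hk := hS.k0
  have h1 := hS.s10.ne'
  have e1 : (f * (x.1.2.2.1 - x.1.2.1) + x.1.2.1 + 2 * x.1.2.2.1 + x.1.2.2.2 - x.1.1) *
      (∑ i, x.2.1 i * x.2.2.1 i) ^ 2 + x.1.1 * 1 - (1 - δ) * x.1.1 * 1 -
      (f * (x.1.2.2.1 - x.1.2.1) + x.1.2.1 + 2 * x.1.2.2.1 + x.1.2.2.2 - x.1.1) /
      (4 * x.1.2.2.1 ^ 2) * (2 * x.1.2.2.1 * ∑ i, x.2.1 i * x.2.2.1 i) ^ 2 - 0 = δ * x.1.1 := by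
    field_simp
    ring
  rw [e1]
  exact mul_pos hδ hk

lemma xg_cont {n : ℝ} (hS : Sc n f x.1.1 x.1.2.1 x.1.2.2.1 x.1.2.2.2) :
    ContinuousAt (fun x : X ι => xg f x) x := by
  have h1 : 4 * x.1.2.2.1 ^ 2 ≠ 0 := by have := hS.s10; positivity
  unfold xg gam L2 kap sig xK xδ xy
  fun_prop (disch := assumption)

end Vale.Agent.P088.R2.H312.T
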